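import Vale.Agent.P224.R2.H728.T0o

/-!
The second moment of `|J x|^2 - 1` from the rows of order two and four.
-/

namespace Vale.Agent.P224.R2.H590

open MeasureTheory Matrix Finset Filter
open Vale.Agent.P224.R2.H728

set_option linter.unusedSectionVars false

noncomputable section

variable {ι Ω : Type*} [Fintype ι] [DecidableEq ι] [MeasurableSpace Ω] {μ : Measure Ω}
  {m : ℝ} {x N : ι → Ω → ℝ} {j : ι → ℝ}

/-- `|J x|^2 - 1` for a diagonal matrix -/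
def qj (j : ι → ℝ) (x : ι → Ω → ℝ) (ω : Ω) : ℝ := ∑ a, j a ^ 2 * x a ω ^ 2 - 1

variable (h : T0Data μ m x N)
include h

lemma ss_le (hm : 0 ≤ m) (hL : LSq μ (Matrix.diagonal j) x N) (a : ι) :
    (m + 2) * ss μ j x N a ≤ 1 + (m + 1) * dd μ x N a := by
  have h1 := h.P_ss hL a
  have h2 := h.P_eq a
  have h3 : 0 ≤ m2 μ x x a a := integral_nonneg fun ω => mul_self_nonneg _
  have h4 : 0 ≤ j a ^ 2 * m2 μ x x a a := by positivity
  nlinarith

lemma dss_sq (hm : 0 ≤ m) (hL : LSq μ (Matrix.diagonal j) x N) (a : ι) :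
    (dd μ x N a - ss μ j x N a) ^ 2 ≤ dd μ x N a ^ 2 + 2 / (m + 1) * ss μ j x N a := by
  have h1 := ss_le h hm hL a
  have h2 := h.neg_le_dd hm a
  have h3 := h.ss_nonneg j a
  set d := dd μ x N a
  set s := ss μ j x N a
  have k1 : s - 2 * d ≤ 2 / (m + 1) := by
    rw [le_div_iff₀ (by linarith)]
    have e : (m + 2) * ((s - 2 * d) * (m + 1)) ≤ (m + 2) * 2 := by nlinarith
    exact le_of_mul_le_mul_left e (by linarith)
  nlinarith [mul_le_mul_of_nonneg_left k1 h3]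

/-- the Frobenius norm of the weights, sharp form -/
theorem w_sq (hm : 0 ≤ m) (hL : LSq μ (Matrix.diagonal j) x N) {δ : ℝ} (hδ : 0 ≤ δ) (hδ1 : δ < 1)
    (hf : fro (De μ x N) ≤ δ ^ 2) :
    ∑ a, (j a ^ 2 - 1) ^ 2
      ≤ (m + 2) ^ 2 * ((δ ^ 2 + 2 / (m + 1) * hh μ (Matrix.diagonal j) x N) / (1 - δ) ^ 2) := by
  set η := hh μ (Matrix.diagonal j) x N with hη
  have h7 : (0 : ℝ) < 1 - δ := by linarith
  have hη0 : 0 ≤ η := h.hh_nonneg _
  have e1 : ∀ a, (1 - δ) ^ 2 * (j a ^ 2 - 1) ^ 2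
      ≤ (m + 2) ^ 2 * (dd μ x N a ^ 2 + 2 / (m + 1) * ss μ j x N a) := by
    intro a
    have h1 := h.w_eq hL a
    have h2 := h.abs_dd_le hδ hf a
    have h4 : dd μ x N a ≤ δ := (le_abs_self _).trans h2
    have h5 : (1 - δ) ^ 2 ≤ (1 - dd μ x N a) ^ 2 := by
      apply pow_le_pow_left₀ h7.le
      linarith
    calc (1 - δ) ^ 2 * (j a ^ 2 - 1) ^ 2 ≤ (1 - dd μ x N a) ^ 2 * (j a ^ 2 - 1) ^ 2 :=
          mul_le_mul_of_nonneg_right h5 (sq_nonneg _)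
      _ = (m + 2) ^ 2 * (dd μ x N a - ss μ j x N a) ^ 2 := by
          rw [← mul_pow, mul_comm (1 - dd μ x N a), h1, mul_pow]
      _ ≤ _ := mul_le_mul_of_nonneg_left (dss_sq h hm hL a) (sq_nonneg _)
  have e3 : (1 - δ) ^ 2 * ∑ a, (j a ^ 2 - 1) ^ 2
      ≤ (m + 2) ^ 2 * (δ ^ 2 + 2 / (m + 1) * η) := by
    rw [Finset.mul_sum]
    refine (Finset.sum_le_sum fun a _ => e1 a).trans ?_
    rw [← Finset.mul_sum, Finset.sum_add_distrib, ← Finset.mul_sum, h.sum_ss, ← hη]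
    refine mul_le_mul_of_nonneg_left ?_ (sq_nonneg _)
    have := h.sum_dd_sq.trans hf
    linarith
  rw [← mul_div_assoc, le_div_iff₀ (by positivity)]
  linarith

/-- the mean of `|J x|^2 - 1` -/
theorem int_qj (hL : LSq μ (Matrix.diagonal j) x N) (hm : m + 2 ≠ 0) :
    ∫ ω, qj j x ω ∂μ = -hh μ (Matrix.diagonal j) x N := by
  have := h.prob
  have bx := h.bx
  have e1 : ∀ ω, qj j x ω = ∑ a, (j a ^ 2 - 1) * (x a ω * x a ω) := by
    intro ω
    have := h.ux ω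
    unfold qj
    have e : ∑ a, (j a ^ 2 - 1) * (x a ω * x a ω) = ∑ a, j a ^ 2 * x a ω ^ 2 - ∑ a, x a ω ^ 2 := by
      rw [← Finset.sum_sub_distrib]
      exact Finset.sum_congr rfl fun a _ => by ring
    rw [e, this]
  simp_rw [e1]
  rw [integral_finsetSum _ fun a _ => (((bx a).mul (bx a)).const_mul _).int]
  simp_rw [integral_const_mul]
  have e2 : ∀ a, (m + 2) * ((j a ^ 2 - 1) * ∫ ω, x a ω * x a ω ∂μ)
      = (m + 2) * dd μ x N a - (m + 2) * ss μ j x N a := by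
    intro a
    have h1 := h.w_eq hL a
    have h2 := h.G_eq a
    unfold m2 at h2
    have : (m + 2) * ((j a ^ 2 - 1) * ∫ ω, x a ω * x a ω ∂μ)
        = (j a ^ 2 - 1) * ((m + 2) * ∫ ω, x a ω * x a ω ∂μ) := by ring
    rw [this, h2, h1]
    ring
  have e3 : (m + 2) * ∑ a, (j a ^ 2 - 1) * ∫ ω, x a ω * x a ω ∂μ
      = (m + 2) * -hh μ (Matrix.diagonal j) x N := by
    rw [Finset.mul_sum]
    simp_rw [e2]
    rw [Finset.sum_sub_distrib, ← Finset.mul_sum, ← Finset.mul_sum, h.sum_dd, h.sum_ss]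
    ring
  exact mul_left_cancel₀ hm e3

/-- the second moment of `|J x|^2 - 1` in terms of the weights -/
theorem int_qj_sq (hm : 0 ≤ m) (hL : LSq μ (Matrix.diagonal j) x N) :
    ∫ ω, qj j x ω ^ 2 ∂μ
      ≤ 16 / ((m + 1) * (7 * m + 23)) * ∑ a, (j a ^ 2 - 1) ^ 2
        + hh μ (Matrix.diagonal j) x N ^ 2 := by
  have := h.prob
  have bx := h.bx
  set η := hh μ (Matrix.diagonal j) x N with hη
  have hcard : (Fintype.card ι : ℝ) = m + 2 := h.card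
  set τ : ℝ := (∑ a, (j a ^ 2 - 1)) / (m + 2) with hτ
  have hτs : ∑ a, (j a ^ 2 - 1) = (m + 2) * τ := by rw [hτ]; field_simp
  set A : Matrix ι ι ℝ := Matrix.diagonal fun a => j a ^ 2 - 1 - τ with hA
  have hAs : A.IsSymm := Matrix.isSymm_diagonal _
  have hAt : A.trace = 0 := by
    rw [hA, Matrix.trace_diagonal, Finset.sum_sub_distrib, hτs, Finset.sum_const, Finset.card_univ,
      nsmul_eq_mul, hcard]
    ring
  have hfro : fro A = ∑ a, (j a ^ 2 - 1 - τ) ^ 2 := by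
    unfold fro
    refine Finset.sum_congr rfl fun a _ => ?_
    rw [Finset.sum_eq_single a]
    · simp [hA]
    · intro b _ hb
      simp [hA, Matrix.diagonal_apply_ne _ (Ne.symm hb)]
    · intro ha; exact absurd (Finset.mem_univ a) ha
  have hfro2 : fro A ≤ ∑ a, (j a ^ 2 - 1) ^ 2 := by
    have e : ∑ a, (j a ^ 2 - 1 - τ) ^ 2 = ∑ a, (j a ^ 2 - 1) ^ 2 - (m + 2) * τ ^ 2 := by
      have e1 : ∑ a, (j a ^ 2 - 1 - τ) ^ 2
          = ∑ a, (j a ^ 2 - 1) ^ 2 - 2 * τ * ∑ a, (j a ^ 2 - 1) + ∑ _a : ι, τ ^ 2 := by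
        rw [Finset.mul_sum, ← Finset.sum_sub_distrib, ← Finset.sum_add_distrib]
        exact Finset.sum_congr rfl fun a _ => by ring
      rw [e1, hτs, Finset.sum_const, Finset.card_univ, nsmul_eq_mul, hcard]
      ring
    rw [hfro, e]
    have : 0 ≤ (m + 2) * τ ^ 2 := by positivity
    linarith
  have hq : ∀ ω, vc x ω ⬝ᵥ (A *ᵥ vc x ω) = qj j x ω - τ := by
    intro ω
    have hu := h.ux ω
    have e : vc x ω ⬝ᵥ (A *ᵥ vc x ω) = ∑ a, (j a ^ 2 - 1 - τ) * x a ω ^ 2 := by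
      rw [hA]
      simp only [dotProduct, Matrix.mulVec_diagonal, vc]
      exact Finset.sum_congr rfl fun a _ => by ring
    have e2 : ∑ a, (j a ^ 2 - 1 - τ) * x a ω ^ 2
        = ∑ a, j a ^ 2 * x a ω ^ 2 - (1 + τ) * ∑ a, x a ω ^ 2 := by
      rw [Finset.mul_sum, ← Finset.sum_sub_distrib]
      exact Finset.sum_congr rfl fun a _ => by ring
    rw [e, e2, hu]
    unfold qj
    ring
  have bq : BM (qj j x) := by
    unfold qj
    exact (BM.sum _ fun a _ => ((bx a).pow 2).const_mul _).sub (BM.const 1)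
  have h1 := h.quad_bound hm hAs hAt
  simp_rw [hq] at h1
  have e1 : ∫ ω, (qj j x ω - τ) ^ 2 ∂μ = ∫ ω, qj j x ω ^ 2 ∂μ + 2 * τ * η + τ ^ 2 := by
    have e : ∀ ω, (qj j x ω - τ) ^ 2 = (qj j x ω ^ 2 - 2 * τ * qj j x ω) + τ ^ 2 := fun ω => by ring
    simp_rw [e]
    rw [integral_add ((bq.pow 2).sub (bq.const_mul _)).int (BM.const _).int,
      integral_sub (bq.pow 2).int (bq.const_mul _).int, integral_const_mul, int_qj h hL (by positivity)]
    simp [hη]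
  rw [e1] at h1
  have h2 : 16 / ((m + 1) * (7 * m + 23)) * fro A
      ≤ 16 / ((m + 1) * (7 * m + 23)) * ∑ a, (j a ^ 2 - 1) ^ 2 :=
    mul_le_mul_of_nonneg_left hfro2 (by positivity)
  nlinarith [sq_nonneg (τ + η)]

/-- **the second moment of `|J x|^2 - 1`** -/
theorem Eq2 (hm : 0 ≤ m) (hL : LSq μ (Matrix.diagonal j) x N) {δ : ℝ} (hδ : 0 ≤ δ) (hδ1 : δ < 1)
    (hf : fro (De μ x N) ≤ δ ^ 2) :
    ∫ ω, qj j x ω ^ 2 ∂μ
      ≤ 16 * (m + 2) ^ 2 / ((m + 1) * (7 * m + 23))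
          * ((δ ^ 2 + 2 / (m + 1) * hh μ (Matrix.diagonal j) x N) / (1 - δ) ^ 2)
        + hh μ (Matrix.diagonal j) x N ^ 2 := by
  have h1 := int_qj_sq h hm hL
  have h2 := w_sq h hm hL hδ hδ1 hf
  have h3 : 16 / ((m + 1) * (7 * m + 23)) * ∑ a, (j a ^ 2 - 1) ^ 2
      ≤ 16 / ((m + 1) * (7 * m + 23)) * ((m + 2) ^ 2
        * ((δ ^ 2 + 2 / (m + 1) * hh μ (Matrix.diagonal j) x N) / (1 - δ) ^ 2)) :=
    mul_le_mul_of_nonneg_left h2 (by positivity)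
  have h4 : 16 / ((m + 1) * (7 * m + 23)) * ((m + 2) ^ 2
        * ((δ ^ 2 + 2 / (m + 1) * hh μ (Matrix.diagonal j) x N) / (1 - δ) ^ 2))
      = 16 * (m + 2) ^ 2 / ((m + 1) * (7 * m + 23))
          * ((δ ^ 2 + 2 / (m + 1) * hh μ (Matrix.diagonal j) x N) / (1 - δ) ^ 2) := by ring
  linarith

/-- simple form: `E q^2 ≤ (16/7) (δ^2 + 2 η/(m+1))/(1-δ)^2 + η^2`  -/
theorem Eq2' (hm : 3 ≤ m) (hL : LSq μ (Matrix.diagonal j) x N) {δ : ℝ} (hδ : 0 ≤ δ) (hδ1 : δ < 1)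
    (hf : fro (De μ x N) ≤ δ ^ 2) :
    ∫ ω, qj j x ω ^ 2 ∂μ
      ≤ 16 / 7 * ((δ ^ 2 + 2 / (m + 1) * hh μ (Matrix.diagonal j) x N) / (1 - δ) ^ 2)
        + hh μ (Matrix.diagonal j) x N ^ 2 := by
  have h1 := Eq2 h (by linarith) hL hδ hδ1 hf
  have h7 : (0 : ℝ) < 1 - δ := by linarith
  have hη : 0 ≤ hh μ (Matrix.diagonal j) x N := h.hh_nonneg _
  have h3 : 0 ≤ (δ ^ 2 + 2 / (m + 1) * hh μ (Matrix.diagonal j) x N) / (1 - δ) ^ 2 := by
    have : (0 : ℝ) < m + 1 := by linarith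
    positivity
  have h2 : 16 * (m + 2) ^ 2 / ((m + 1) * (7 * m + 23)) ≤ 16 / 7 := by
    rw [div_le_div_iff₀ (by nlinarith) (by norm_num)]
    nlinarith
  nlinarith [mul_le_mul_of_nonneg_right h2 h3]

/-- the cross term against a direction of the defect -/
theorem cross_le (j v : ι → ℝ) (hv : ∑ a, v a ^ 2 ≤ 1) :
    |∫ ω, qj j x ω * (∑ a, v a * zd j x N a ω) ∂μ|
      ≤ √(∫ ω, qj j x ω ^ 2 ∂μ) * √(hh μ (Matrix.diagonal j) x N) := by
  have := h.prob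
  have bx := h.bx
  have bz := h.bzd j
  have bq : BM (qj j x) := by
    unfold qj
    exact (BM.sum _ fun a _ => ((bx a).pow 2).const_mul _).sub (BM.const 1)
  have bv : BM (fun ω => ∑ a, v a * zd j x N a ω) := BM.sum _ fun a _ => (bz a).const_mul _
  have h1 := int_cs (μ := μ) bq bv
  have h2 : ∫ ω, (∑ a, v a * zd j x N a ω) ^ 2 ∂μ ≤ hh μ (Matrix.diagonal j) x N := by
    rw [h.hh_eq, ze_diag]
    unfold m2
    rw [← integral_finsetSum _ fun a _ => ((bz a).mul (bz a)).int]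
    refine integral_mono (bv.pow 2).int (BM.sum _ fun a _ => (bz a).mul (bz a)).int fun ω => ?_
    simp only
    refine (Finset.sum_mul_sq_le_sq_mul_sq _ _ _).trans ?_
    have e : ∑ a, zd j x N a ω ^ 2 = ∑ a, zd j x N a ω * zd j x N a ω :=
      Finset.sum_congr rfl fun a _ => by ring
    rw [e]
    have e2 : 0 ≤ ∑ a, zd j x N a ω * zd j x N a ω :=
      Finset.sum_nonneg fun a _ => mul_self_nonneg _
    nlinarith
  have h3 : 0 ≤ ∫ ω, qj j x ω ^ 2 ∂μ := integral_nonneg fun ω => sq_nonneg _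
  rw [← Real.sqrt_mul h3]
  apply Real.abs_le_sqrt
  exact h1.trans (mul_le_mul_of_nonneg_left h2 h3)

end

end Vale.Agent.P224.R2.H590
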