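import Vale.Agent.P224.R2.H928.Kb
import Vale.Agent.P224.R2.H679.ElCS
import Vale.Agent.P224.R2.H579.ElT

/-!
The mean normal law without the cross term on a box: the constants are checked over the
rationals.
-/

namespace Vale.Agent.P224.R2.H590

open MeasureTheory Set Filter Function Real Finset Matrix
open Vale.Agent.P224.R2.H728 Vale.Agent.P224.R2.H579 Vale.Agent.P224.R2.H807

set_option linter.unusedSectionVars false

noncomputable section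

/-- the data of an affine bound of the mean normal without the cross term -/
structure CcT where
  /-- the box and the bound -/
  f : ElT
  /-- bound of the weights -/
  ρ : ℚ
  /-- the correction of the factor of the radius term -/
  κ : ℚ
  /-- bound of the Frobenius norm of the weights -/
  om : ℚ
  /-- bound of the norm of the least squares matrix -/
  T : ℚ
  /-- bound of the cubic trace -/
  τ : ℚ
  /-- the level of the defect of the radius -/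
  Q : ℚ
  /-- the level of the linear part -/
  t : ℚ
  /-- the share of the radius -/
  β : ℚ
  /-- order of the moments, minus one -/
  K : ℕ
  /-- exponent of the row -/
  l : ℚ
  /-- gap of the row -/
  g : ℚ
  /-- norm of the weights over `m + 1` -/
  D : ℚ
  /-- fractional part of the exponent -/
  fr : ℚ
  /-- the excess of the radius -/
  E2 : ℚ
  /-- integer part of the exponent -/
  k : ℕ

/-- the constant of the rare part -/
def crQ (K : ℕ) (t : ℚ) : ℚ := 3 / 2 * ((K / t) ^ K / (K + 1) ^ (K + 1)) ^ 2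

lemma crQ_cast (K : ℕ) (t : ℚ) : ((crQ K t : ℚ) : ℝ) = H679.cR K t := by
  unfold crQ H679.cR
  push_cast
  ring

/-- the conditions on the excess of the radius; `e ≥ 1/(m+1)`, `fro De ≤ d²`, `hh ≤ H` -/
def qtOK (e d H : ℚ) (c : CcT) : Bool :=
  decide (0 ≤ d) && decide (d < 1) && decide (e ≤ c.D) && decide (0 < c.l) && decide (0 < c.g)
    && decide (0 ≤ c.fr) && decide (2 * c.l * (c.D + e) < 1)
    && decide ((1 + e) ^ 2 * (d ^ 2 + 2 * e * H) ≤ (c.D * (1 - d)) ^ 2)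
    && decide (1 + (d * c.D + e) + 2 * c.l * c.D ^ 2 / (1 - 2 * c.l * (c.D + e)) + c.g ≤ 1 + c.Q)
    && decide (c.k + c.fr ≤ c.l * c.g + 3)
    && decide (4 / (c.l ^ 3 * c.g) * ((500 / 1359) ^ c.k / (1 + c.fr + c.fr ^ 2 / 2)) ≤ c.E2)

/-- the conditions for an affine bound of the mean normal on a box -/
def ccOK (m : ℚ) (c : CcT) : Bool :=
  let a := c.ρ ^ 2 / (m + 2) + c.κ
  let w := (c.f.d ^ 2 + 2 / (m + 1) * c.f.h) / (1 - c.f.d) ^ 2
  decide (0 < m) && decide (0 ≤ c.f.d) && decide (c.f.d < 1) && decide (0 < c.ρ)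
    && decide (1 + (m + 2) * (c.f.d / (1 - c.f.d)) ≤ c.ρ ^ 2)
    && decide (c.ρ ^ 2 ≤ (m + 2) / 2)
    && decide (0 ≤ c.κ) && decide (9 / 8 * c.ρ ^ 2 ≤ c.κ * ((m + 2) / 2))
    && decide (9 / 4 * c.ρ ^ 2 ≤ c.κ * ((m + 2) / 2 + c.ρ ^ 2))
    && decide (0 ≤ c.om) && decide ((m + 2) ^ 2 * w ≤ c.om ^ 2)
    && decide (0 ≤ c.T) && decide (m + 2 + c.f.d * c.om ≤ c.T ^ 2)
    && decide (0 ≤ c.τ) && decide (2 * (c.f.d + c.om) * c.T ≤ (m + 4) * ((m + 1) * c.τ))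
    && decide (c.f.L ≤ 1 - 2 * m / ((m + 1) * (m + 4)) - 4 * c.ρ ^ 2 / ((m + 1) * (m + 4))
      - 2 * EwQ c.f.d c.f.h * (m + 2 + c.ρ ^ 2) / (m + 1) - c.ρ * c.τ)
    && decide (0 ≤ c.Q) && decide (1 ≤ c.K) && decide (0 < c.t) && decide (0 < c.β)
    && decide (c.β < 1)
    && decide (3 / 2 + a + (1 / 4 + a / 2) * c.Q + c.t ≤ c.f.K)
    && decide (3 * (1 / 4 + a / 2) ^ 2 / (2 * c.β) * c.E2
      + crQ c.K c.t / (1 - c.β) * ((4 * c.ρ ^ 2) ^ (c.K + 1) * momQ m (c.K + 1)) ≤ c.f.R)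
    && qtOK (1 / (m + 1)) c.f.d c.f.h c

section

variable {ι Ω : Type*} [Fintype ι] [DecidableEq ι] [MeasurableSpace Ω] {μ : Measure Ω}
  {x N : ι → Ω → ℝ} {j : ι → ℝ}

/-- the excess of the radius from its conditions, as a hypothesis on the data -/
def RowHyp (μ : Measure Ω) (m : ℚ) (x N : ι → Ω → ℝ) (j : ι → ℝ) : Prop :=
  ∀ (e d H : ℚ) (c : CcT), qtOK e d H c = true → 1 ≤ (e : ℝ) * (m + 1) →
    fro (De μ x N) ≤ (d : ℝ) ^ 2 → hh μ (diagonal j) x N ≤ H →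
    ∫ ω, max (qj j x ω - c.Q) 0 ^ 2 ∂μ ≤ c.E2

/-- the moments of all the linear functions from the ones of the unit vectors -/
lemma mom_scale {k : ℕ} {M : ℝ}
    (hM : ∀ v : ι → ℝ, ∑ a, v a ^ 2 = 1 → ∫ ω, (∑ a, v a * x a ω) ^ (2 * (k + 1)) ∂μ ≤ M)
    (w : ι → ℝ) : ∫ ω, (∑ a, w a * x a ω) ^ (2 * (k + 1)) ∂μ ≤ (∑ a, w a ^ 2) ^ (k + 1) * M := by
  have hs0 : 0 ≤ ∑ a, w a ^ 2 := Finset.sum_nonneg fun a _ => sq_nonneg _
  rcases hs0.eq_or_lt with h0 | h0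
  · have hw : ∀ a, w a = 0 := fun a => by
      have := (Finset.sum_eq_zero_iff_of_nonneg fun b _ => sq_nonneg (w b)).1 h0.symm a
        (Finset.mem_univ a)
      exact pow_eq_zero_iff two_ne_zero |>.1 this
    have e1 : ∀ ω, (∑ a, w a * x a ω) ^ (2 * (k + 1)) = 0 := fun ω => by
      have : ∑ a, w a * x a ω = 0 := Finset.sum_eq_zero fun a _ => by rw [hw a, zero_mul]
      rw [this, zero_pow (by omega)]
    simp only [e1, integral_zero]
    rw [← h0, zero_pow (by omega), zero_mul]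
  · set s := √(∑ a, w a ^ 2) with hs
    have hs1 : 0 < s := Real.sqrt_pos.2 h0
    have hs2 : s ^ 2 = ∑ a, w a ^ 2 := Real.sq_sqrt h0.le
    have h1 := hM (fun a => w a / s) (by
      simp only [div_pow]
      rw [← Finset.sum_div, ← hs2, div_self (by positivity)])
    have e1 : ∀ ω, (∑ a, w a * x a ω) ^ (2 * (k + 1))
        = (∑ a, w a ^ 2) ^ (k + 1) * (∑ a, w a / s * x a ω) ^ (2 * (k + 1)) := fun ω => by
      have : ∑ a, w a / s * x a ω = (∑ a, w a * x a ω) / s := by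
        rw [Finset.sum_div]
        exact Finset.sum_congr rfl fun a _ => by ring
      rw [this, div_pow, ← hs2, ← pow_mul, mul_div_cancel₀]
      positivity
    simp only [e1]
    rw [integral_const_mul]
    exact mul_le_mul_of_nonneg_left h1 (by positivity)

/-- **Soundness** of the affine bound of the mean normal without the cross term. -/
theorem cc_sound {m : ℚ} {c : CcT} (hok : ccOK m c = true)
    (h : T0Data μ (m : ℝ) x N) (hL : LSq μ (diagonal j) x N) (hrow : RowHyp μ m x N j)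
    (hM : ∀ v : ι → ℝ, ∑ a, v a ^ 2 = 1 →
      ∫ ω, (∑ a, v a * x a ω) ^ (2 * (c.K + 1)) ∂μ ≤ (momQ m (c.K + 1) : ℚ))
    (hd : √(fro (De μ x N)) ≤ c.f.d) (hh' : hh μ (diagonal j) x N ≤ c.f.h) :
    c.f.L * √(uu μ N) ≤ c.f.K * hh μ (diagonal j) x N + c.f.R := by
  simp only [ccOK, Bool.and_eq_true, decide_eq_true_eq] at hok
  obtain ⟨⟨⟨⟨⟨⟨⟨⟨⟨⟨⟨⟨⟨⟨⟨⟨⟨⟨⟨⟨⟨⟨⟨hm, hd0⟩, hd1⟩, hρ⟩, hρ2⟩, hρm⟩, hκ⟩, hκ1⟩, hκ2⟩, ho⟩, ho2⟩, hT0⟩,
    hT⟩, hτ0⟩, hτ⟩, hLe⟩, hQ0⟩, hK1⟩, ht⟩, hβ⟩, hβ1⟩, hK⟩, hR⟩, hqt⟩ := hok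
  have hm0 : (0 : ℝ) < m := by exact_mod_cast hm
  have hd0R : (0 : ℝ) ≤ c.f.d := by exact_mod_cast hd0
  have hd1R : (c.f.d : ℝ) < 1 := by exact_mod_cast hd1
  have hρR : (0 : ℝ) < c.ρ := by exact_mod_cast hρ
  have hρ2R : 1 + ((m : ℝ) + 2) * ((c.f.d : ℝ) / (1 - c.f.d)) ≤ (c.ρ : ℝ) ^ 2 := by
    exact_mod_cast hρ2
  have hρmR : (c.ρ : ℝ) ^ 2 ≤ ((m : ℝ) + 2) / 2 := by exact_mod_cast hρm
  have hκR : (0 : ℝ) ≤ c.κ := by exact_mod_cast hκ
  have hκ1R : 9 / 8 * (c.ρ : ℝ) ^ 2 ≤ c.κ * (((m : ℝ) + 2) / 2) := by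
    have := (Rat.cast_le (K := ℝ)).2 hκ1
    push_cast at this
    exact this
  have hκ2R : 9 / 4 * (c.ρ : ℝ) ^ 2 ≤ c.κ * (((m : ℝ) + 2) / 2 + (c.ρ : ℝ) ^ 2) := by
    have := (Rat.cast_le (K := ℝ)).2 hκ2
    push_cast at this
    exact this
  have hoR : (0 : ℝ) ≤ c.om := by exact_mod_cast ho
  have ho2R : ((m : ℝ) + 2) ^ 2 * (((c.f.d : ℝ) ^ 2 + 2 / ((m : ℝ) + 1) * c.f.h)
      / (1 - c.f.d) ^ 2) ≤ (c.om : ℝ) ^ 2 := by
    have := (Rat.cast_le (K := ℝ)).2 ho2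
    push_cast at this
    exact this
  have hT0R : (0 : ℝ) ≤ c.T := by exact_mod_cast hT0
  have hTR : (m : ℝ) + 2 + c.f.d * c.om ≤ (c.T : ℝ) ^ 2 := by exact_mod_cast hT
  have hτ0R : (0 : ℝ) ≤ c.τ := by exact_mod_cast hτ0
  have hτR : 2 * ((c.f.d : ℝ) + c.om) * c.T ≤ ((m : ℝ) + 4) * (((m : ℝ) + 1) * c.τ) := by
    exact_mod_cast hτ
  have hLeR : (c.f.L : ℝ) ≤ 1 - 2 * m / ((m + 1) * (m + 4)) - 4 * (c.ρ : ℝ) ^ 2
      / ((m + 1) * (m + 4)) - 2 * Ew c.f.d c.f.h * (m + 2 + (c.ρ : ℝ) ^ 2) / (m + 1)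
      - c.ρ * c.τ := by
    rw [← Ew_cast]
    exact_mod_cast hLe
  have hQ0R : (0 : ℝ) ≤ c.Q := by exact_mod_cast hQ0
  have htR : (0 : ℝ) < c.t := by exact_mod_cast ht
  have hβR : (0 : ℝ) < c.β := by exact_mod_cast hβ
  have hβ1R : (c.β : ℝ) < 1 := by exact_mod_cast hβ1
  have hKR : 3 / 2 + ((c.ρ : ℝ) ^ 2 / (m + 2) + c.κ)
      + (1 / 4 + ((c.ρ : ℝ) ^ 2 / (m + 2) + c.κ) / 2) * c.Q + c.t ≤ c.f.K := by
    have := (Rat.cast_le (K := ℝ)).2 hK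
    push_cast at this
    exact this
  have hRR : 3 * (1 / 4 + ((c.ρ : ℝ) ^ 2 / (m + 2) + c.κ) / 2) ^ 2 / (2 * c.β) * c.E2
      + H679.cR c.K c.t / (1 - c.β)
        * ((4 * (c.ρ : ℝ) ^ 2) ^ (c.K + 1) * (momQ m (c.K + 1) : ℚ)) ≤ c.f.R := by
    have := (Rat.cast_le (K := ℝ)).2 hR
    push_cast at this
    rw [crQ_cast] at this
    exact this
  have hH0 : 0 ≤ hh μ (diagonal j) x N := h.hh_nonneg _
  have hh0 : (0 : ℝ) ≤ c.f.h := hH0.trans hh'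
  have h1d : (0 : ℝ) < 1 - c.f.d := by linarith
  have hf0 : 0 ≤ fro (De μ x N) := fro_nonneg _
  have hfb : fro (De μ x N) ≤ (c.f.d : ℝ) ^ 2 := by
    rw [← Real.sq_sqrt hf0]
    exact pow_le_pow_left₀ (Real.sqrt_nonneg _) hd 2
  have hj := fun b => abs_j_le h hm0.le hL hd0R hd1R hfb hρR.le hρ2R b
  have hw : ∑ a, (j a ^ 2 - 1) ^ 2 ≤ (c.om : ℝ) ^ 2 := by
    refine (w_sq h hm0.le hL hd0R hd1R hfb).trans (le_trans ?_ ho2R)
    gcongr
  have hcub := H928.cubic_le h hm0 hL hd0R hfb hoR hw hT0R hTR hτR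
  have hE0 : 0 ≤ Ew c.f.d (hh μ (diagonal j) x N) := Ew_nonneg hd0R hd1R hH0
  have hE := Ew_mono hd0R hd1R hH0 hh'
  have hE1 : 0 ≤ Ew c.f.d c.f.h := hE0.trans hE
  have hL8 : ∀ a, (c.f.L : ℝ) ≤ L8 m j a := by
    intro a
    refine le_trans ?_ (L8_ge h hm0 hL hd0R hd1R hfb hcub a)
    have j1 : j a ^ 2 ≤ (c.ρ : ℝ) ^ 2 := by
      rw [← sq_abs (j a)]
      exact pow_le_pow_left₀ (abs_nonneg _) (hj a) 2
    have j2 : 4 * j a ^ 2 / (((m : ℝ) + 1) * (m + 4)) ≤ 4 * (c.ρ : ℝ) ^ 2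
        / ((m + 1) * (m + 4)) := by gcongr
    have j3 : 2 * Ew c.f.d (hh μ (diagonal j) x N) * ((m : ℝ) + 2 + j a ^ 2) / (m + 1)
        ≤ 2 * Ew c.f.d c.f.h * (m + 2 + (c.ρ : ℝ) ^ 2) / (m + 1) := by gcongr
    have j4 : |j a| * (c.τ : ℝ) ≤ c.ρ * c.τ := mul_le_mul_of_nonneg_right (hj a) hτ0R
    linarith
  have hM0 : (0 : ℝ) ≤ (momQ m (c.K + 1) : ℚ) := by
    have : 0 ≤ momQ m (c.K + 1) := H928.momQ_nonneg hm.le _
    exact_mod_cast this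
  have hE2 := hrow _ _ _ c hqt (by
    push_cast
    rw [div_mul_cancel₀ _ (by positivity)]) hfb hh'
  have key := H679.el_cq h hm0 hL8 hρR hρmR hκR hκ1R hκ2R hj hK1 htR hβR hβ1R hQ0R hM0
    (mom_scale hM) hE2
  have k2 := mul_le_mul_of_nonneg_right hKR hH0
  linarith

/-- the list of boxes -/
def ccAll (m : ℚ) : List CcT → Bool
  | [] => true
  | c :: l => ccOK m c && ccAll m l

theorem ccAll_sound {m : ℚ} (l : List CcT) (hok : ccAll m l = true)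
    (h : T0Data μ (m : ℝ) x N) (hL : LSq μ (diagonal j) x N) (hrow : RowHyp μ m x N j)
    (hM : ∀ (k : ℕ) (v : ι → ℝ), ∑ a, v a ^ 2 = 1 →
      ∫ ω, (∑ a, v a * x a ω) ^ (2 * k) ∂μ ≤ (momQ m k : ℚ)) :
    ∀ f ∈ l.map CcT.f, √(fro (De μ x N)) ≤ f.d → (f.ha : ℝ) ≤ hh μ (diagonal j) x N →
      hh μ (diagonal j) x N ≤ f.h → f.L * √(uu μ N) ≤ f.K * hh μ (diagonal j) x N + f.R := by
  induction l with
  | nil => intro f hf; simp at hf
  | cons c l ih =>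
    simp only [ccAll, Bool.and_eq_true] at hok
    intro f hf
    simp only [List.map_cons, List.mem_cons] at hf
    rcases hf with hf | hf
    · subst hf
      intro hd _ hh'
      exact cc_sound hok.1 h hL hrow (hM (c.K + 1)) hd hh'
    · exact ih hok.2 f hf

end

section

open Vale.Agent.P224.R2.H470 Vale.Agent.P224.R2.H662
open scoped RealInnerProductSpace

variable {X : Type*} {E : Type*} [NormedAddCommGroup E] [InnerProductSpace ℝ E]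
  [FiniteDimensional ℝ E] [TopologicalSpace X] [MeasurableSpace X] [CompactSpace X] [BorelSpace X]
  {μ : Measure X} {m : ℕ} {p n : X → E} {ι : Type*} [Fintype ι] [DecidableEq ι]

/-- the excess of the radius from one Boolean -/
theorem qt_ok (h : OneP μ m p n) (b : OrthonormalBasis ι ℝ E) {j : ι → ℝ}
    (hT : T0Data μ m (cob b p) (cob b n))
    (hL : LSq μ (Matrix.diagonal j) (cob b p) (cob b n)) {e d H : ℚ} {c : CcT}
    (hc : qtOK e d H c = true) (he : 1 ≤ (e : ℝ) * (m + 1))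
    (hf : fro (De μ (cob b p) (cob b n)) ≤ (d : ℝ) ^ 2)
    (hH : hh μ (Matrix.diagonal j) (cob b p) (cob b n) ≤ H) :
    ∫ x, max (qj j (cob b p) x - c.Q) 0 ^ 2 ∂μ ≤ c.E2 := by
  have := hT.prob
  simp only [qtOK, Bool.and_eq_true, decide_eq_true_eq] at hc
  obtain ⟨⟨⟨⟨⟨⟨⟨⟨⟨⟨h1, h2⟩, h3⟩, h4⟩, h5⟩, h6⟩, h7⟩, h8⟩, h9⟩, h10⟩, h11⟩ := hc
  have h1R : (0 : ℝ) ≤ d := by exact_mod_cast h1
  have h2R : (d : ℝ) < 1 := by exact_mod_cast h2
  have h3R : (e : ℝ) ≤ c.D := by exact_mod_cast h3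
  have h4R : (0 : ℝ) < c.l := by exact_mod_cast h4
  have h5R : (0 : ℝ) < c.g := by exact_mod_cast h5
  have h6R : (0 : ℝ) ≤ c.fr := by exact_mod_cast h6
  have h7R : 2 * (c.l : ℝ) * (c.D + e) < 1 := by exact_mod_cast h7
  have h8R : (1 + (e : ℝ)) ^ 2 * ((d : ℝ) ^ 2 + 2 * e * H) ≤ (c.D * (1 - d)) ^ 2 := by
    exact_mod_cast h8
  have h9R : 1 + ((d : ℝ) * c.D + e) + 2 * c.l * (c.D : ℝ) ^ 2 / (1 - 2 * c.l * (c.D + e)) + c.g
      ≤ 1 + c.Q := by exact_mod_cast h9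
  have h10R : (c.k : ℝ) + c.fr ≤ c.l * c.g + 3 := by exact_mod_cast h10
  have h11R : 4 / ((c.l : ℝ) ^ 3 * c.g) * ((500 / 1359) ^ c.k / (1 + c.fr + (c.fr : ℝ) ^ 2 / 2))
      ≤ c.E2 := by
    have := (Rat.cast_le (K := ℝ)).2 h11
    push_cast at this
    exact this
  have k1 := H714.row_De h b hT hL h1R h2R hf hH he h3R h8R h4R.le h7R
  have k2 := H579.quad_tail h b h4R h5R h9R k1
  have k3 := H579.exp_num h6R h10R
  have k4 := mul_le_mul_of_nonneg_left k3 (by positivity : 0 ≤ 4 / ((c.l : ℝ) ^ 3 * c.g))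
  refine le_trans (le_of_eq ?_) (k2.trans (k4.trans h11R))
  refine integral_congr_ae (Filter.Eventually.of_forall fun x => ?_)
  simp only
  congr 2
  unfold qj qd cob
  ring

end

end

end Vale.Agent.P224.R2.H590
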