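import Vale.Agent.P224.R2.H590.PtwH
import Vale.Agent.P224.R2.H714.Rs
import Vale.Agent.P224.R2.H662.RareC

/-!
The mean normal law without the cross term: the sharp pointwise bound integrated.
-/

namespace Vale.Agent.P224.R2.H590

open MeasureTheory Matrix Finset Filter
open Vale.Agent.P224.R2.H728 Vale.Agent.P224.R2.H579
open scoped RealInnerProductSpace

set_option linter.unusedSectionVars false

noncomputable section

section

variable {ι Ω : Type*} [Fintype ι] [DecidableEq ι] [MeasurableSpace Ω] {μ : Measure Ω}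
  {m : ℝ} {x N : ι → Ω → ℝ} {j : ι → ℝ}

/-- **The mean normal law without the cross term.** -/
theorem el_cc (h : T0Data μ m x N) (hm : 0 < m) {L ρ κ B1 R1 R2 : ℝ} (hL8 : ∀ a, L ≤ L8 m j a)
    (hρ : 0 < ρ) (hρm : ρ ^ 2 ≤ (m + 2) / 2) (hκ : 0 ≤ κ) (h1 : 9 / 8 * ρ ^ 2 ≤ κ * ((m + 2) / 2))
    (h2 : 9 / 4 * ρ ^ 2 ≤ κ * ((m + 2) / 2 + ρ ^ 2)) (hj : ∀ a, |j a| ≤ ρ)
    (hB : ∀ v' : ι → ℝ, ∑ a, v' a ^ 2 ≤ 1 → ∫ ω, |∑ a, v' a * x a ω| * sz j x N ω ∂μ ≤ B1)
    (hR1 : ∫ ω, rr j x ω * sz j x N ω ∂μ ≤ R1)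
    (hR2 : ∫ ω, rr j x ω ^ 2 * sz j x N ω ∂μ ≤ R2) :
    L * √(uu μ N) ≤ 5 / 4 * hh μ (diagonal j) x N + 1 / 4 * R2
      + (ρ ^ 2 / (m + 2) + κ) * R1 + 2 * ρ * B1 := by
  have := h.prob
  have bz := h.bzd j
  have hhn : 0 ≤ hh μ (diagonal j) x N := h.hh_nonneg _
  have hR10 : 0 ≤ R1 := le_trans (integral_nonneg fun ω =>
    mul_nonneg (rr_nonneg j x ω) (sz_nonneg j x N ω)) hR1
  have hR20 : 0 ≤ R2 := le_trans (integral_nonneg fun ω =>
    mul_nonneg (sq_nonneg (rr j x ω)) (sz_nonneg j x N ω)) hR2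
  have hB0 : 0 ≤ B1 := le_trans (integral_nonneg fun ω =>
    mul_nonneg (abs_nonneg _) (sz_nonneg j x N ω)) (hB (fun _ => 0) (by simp))
  rcases (Real.sqrt_nonneg (uu μ N)).eq_or_lt with h0 | h0
  · rw [← h0, mul_zero]
    positivity
  obtain ⟨v, hv, he⟩ := exists_dir h (√(uu μ N)) h0 rfl
  have hH0 : 0 < (m + 2) / 2 := by positivity
  set v1 : ι → ℝ := fun a => ((m + 2) / 2 + j a ^ 2) * v a / ((m + 2) / 2 + ρ ^ 2) with hv1
  set v2 : ι → ℝ := fun a => v a * j a / ρ with hv2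
  have hv1' : ∑ a, v1 a ^ 2 ≤ 1 := short_vec hH0 hj hv.le
  have hv2' : ∑ a, v2 a ^ 2 ≤ 1 := by
    refine le_trans (Finset.sum_le_sum fun a _ => ?_) hv.le
    rw [hv2]
    simp only
    rw [div_pow, mul_pow, div_le_iff₀ (by positivity)]
    have k1 : j a ^ 2 ≤ ρ ^ 2 := by
      rw [← sq_abs]
      exact pow_le_pow_left₀ (abs_nonneg _) (hj a) 2
    exact mul_le_mul_of_nonneg_left k1 (sq_nonneg _)
  have bl : ∀ w : ι → ℝ, BM fun ω => |∑ a, w a * x a ω| * sz j x N ω := fun w =>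
    (H807.BM.abs (BM.sum _ fun a _ => (h.bx a).const_mul _)).mul (bsz h j)
  have b0 : BM fun ω => 5 / 4 * sz j x N ω := (bsz h j).const_mul _
  have b1 : BM fun ω => 1 / 4 * (rr j x ω ^ 2 * sz j x N ω) :=
    (((brr h j).pow 2).mul (bsz h j)).const_mul _
  have b2 : BM fun ω => (ρ ^ 2 / (m + 2) + κ) * (rr j x ω * sz j x N ω) :=
    ((brr h j).mul (bsz h j)).const_mul _
  have b3 : BM fun ω => ρ * (|∑ a, v1 a * x a ω| * sz j x N ω) := (bl v1).const_mul _
  have b4 : BM fun ω => ρ * (|∑ a, v2 a * x a ω| * sz j x N ω) := (bl v2).const_mul _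
  have hp : ∀ ω, ∑ a, v a * G8 m j (fun b => x b ω) (fun b => N b ω) a
      ≤ 5 / 4 * sz j x N ω + 1 / 4 * (rr j x ω ^ 2 * sz j x N ω)
        + (ρ ^ 2 / (m + 2) + κ) * (rr j x ω * sz j x N ω)
        + ρ * (|∑ a, v1 a * x a ω| * sz j x N ω) + ρ * (|∑ a, v2 a * x a ω| * sz j x N ω) := by
    intro ω
    have k := ptwA (u := fun b => x b ω) (n := fun b => N b ω) hm hρ hρm hκ h1 h2 hj (h.uN ω) hv.le
    have e2 : ∑ b, zz j (fun b => x b ω) (fun b => N b ω) b ^ 2 = sz j x N ω := by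
      unfold sz
      exact Finset.sum_congr rfl fun b _ => by
        have e1 : zz j (fun b => x b ω) (fun b => N b ω) b = zd j x N b ω := rfl
        rw [e1, sq]
    have e3 : √(∑ a, j a ^ 2 * x a ω ^ 2) = rr j x ω := rfl
    have e4 : lx m ρ j v (fun b => x b ω) = ρ * |∑ a, v1 a * x a ω| := rfl
    have e5 : ∑ a, v a * (j a * x a ω) = ρ * ∑ a, v2 a * x a ω := by
      rw [Finset.mul_sum]
      refine Finset.sum_congr rfl fun a _ => ?_
      rw [hv2]
      field_simp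
    rw [e2, e3, e4, e5, ← rr_sq] at k
    refine k.trans ?_
    have s0 := sz_nonneg j x N ω
    have k5 : -(ρ * ∑ a, v2 a * x a ω) ≤ ρ * |∑ a, v2 a * x a ω| := by
      have := neg_abs_le (∑ a, v2 a * x a ω)
      nlinarith
    have k6 := mul_le_mul_of_nonneg_right k5 s0
    nlinarith
  have h3 := law8_dir h hm j v hv he (Real.sqrt_nonneg _) hL8 ((((b0.add b1).add b2).add b3).add b4) hp
  rw [integral_add (((b0.add b1).add b2).add b3).int b4.int,
    integral_add ((b0.add b1).add b2).int b3.int, integral_add (b0.add b1).int b2.int,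
    integral_add b0.int b1.int] at h3
  simp only [integral_const_mul] at h3
  rw [← hh_sz h j] at h3
  have q1 := mul_le_mul_of_nonneg_left (hB v1 hv1') hρ.le
  have q2 := mul_le_mul_of_nonneg_left (hB v2 hv2') hρ.le
  have q3 := mul_le_mul_of_nonneg_left hR1 (by positivity : 0 ≤ ρ ^ 2 / (m + 2) + κ)
  linarith

end

section oneP

open Vale.Agent.P224.R2.H470 Vale.Agent.P224.R2.H662 Vale.Agent.P224.R2.H714

variable {X : Type*} {E : Type*} [NormedAddCommGroup E] [InnerProductSpace ℝ E]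
  [FiniteDimensional ℝ E] [TopologicalSpace X] [MeasurableSpace X] [CompactSpace X] [BorelSpace X]
  {μ : Measure X} {m : ℕ} {p n : X → E} {ι : Type*} [Fintype ι]

/-- `E |Jx|² |z|² ≤ R² E |z|² + tail`, from the exponential row with threshold `s` -/
theorem r2s_row [IsProbabilityMeasure μ] (h : OneP μ m p n) (b : OrthonormalBasis ι ℝ E)
    {j : ι → ℝ} {l s R g : ℝ} (hl : 1 ≤ l) (hR : 0 < R) (hg : 0 < g) (hs0 : 0 ≤ s)
    (hs : s + g ≤ R ^ 2)
    (hrow : ∫ x, Real.exp (l * qd b j p x) * (qd b j p x - s) ∂μ ≤ 0) :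
    ∫ x, qd b j p x * ad b j p n x ∂μ
      ≤ R ^ 2 * ∫ x, ad b j p n x ∂μ
        + (1 + (1 + R) ^ 2) * (1 + R) / (g * R * l) / l * Real.exp (-(l * g) - 2) := by
  have l0 : 0 < l := by linarith
  have cp := h.cp
  have cn := h.cn
  have cq : Continuous fun x => qd b j p x := by
    unfold qd
    fun_prop
  have ca : Continuous fun x => ad b j p n x := by
    unfold ad
    fun_prop
  have hi : Integrable (fun x => Real.exp (l * qd b j p x) * (qd b j p x - s)) μ :=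
    int_of_cont (by fun_prop)
  set K := (1 + (1 + R) ^ 2) * (1 + R) / (g * R * l) * Real.exp (-1) * Real.exp (-(l * R ^ 2))
    with hK
  have hK0 : 0 ≤ K := by positivity
  have ha0 : ∀ x, 0 ≤ ad b j p n x := fun x => ad_nonneg b j x
  have h1 := tail_of_row l0 hK0 hi hrow
    (w := fun x => qd b j p x * ad b j p n x - R ^ 2 * ad b j p n x)
    (int_of_cont (by fun_prop)) fun x => ?_
  · rw [integral_sub (int_of_cont (by fun_prop)) (int_of_cont (by fun_prop)),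
      integral_const_mul] at h1
    have h2 := expBR_const (l := l) (s0 := s) (R := R) (δ := g)
      (C := (1 + (1 + R) ^ 2) * (1 + R) / (g * R * l)) hl hs (by positivity)
    rw [← hK] at h2
    linarith
  · have s1 : 0 ≤ √(qd b j p x) := Real.sqrt_nonneg _
    have s2 : √(qd b j p x) ^ 2 = qd b j p x := Real.sq_sqrt (qd_nonneg b j x)
    have e0 : 0 ≤ K * (Real.exp (l * qd b j p x) * max (qd b j p x - s) 0) :=
      mul_nonneg hK0 (mul_nonneg (Real.exp_pos _).le (le_max_right _ _))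
    rcases le_total (√(qd b j p x)) R with hc | hc
    · have k1 : qd b j p x ≤ R ^ 2 := by
        rw [← s2]
        exact pow_le_pow_left₀ s1 hc 2
      have : (qd b j p x - R ^ 2) * ad b j p n x ≤ 0 :=
        mul_nonpos_of_nonpos_of_nonneg (by linarith) (ha0 x)
      linarith
    · have h4 := numCR hl hR hg hs hs0 _ hc
      rw [s2] at h4
      have k1 : R ^ 2 ≤ qd b j p x := by
        rw [← s2]
        exact pow_le_pow_left₀ hR.le hc 2
      have h5 : qd b j p x * ad b j p n x - R ^ 2 * ad b j p n x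
          ≤ (qd b j p x - R ^ 2) * (1 + √(qd b j p x)) ^ 2 := by
        have k1 : qd b j p x * ad b j p n x - R ^ 2 * ad b j p n x
            = (qd b j p x - R ^ 2) * ad b j p n x := by ring
        rw [k1]
        exact mul_le_mul_of_nonneg_left (ad_le h b j x) (by linarith)
      refine h5.trans (h4.trans (mul_le_mul_of_nonneg_left ?_ hK0))
      exact mul_le_mul_of_nonneg_left (le_max_left _ _) (Real.exp_pos _).le

variable [DecidableEq ι]

/-- **the weighted squared radius** for the least squares matrix, in the form of `el_cc` -/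
theorem r2s_le (h : OneP μ m p n) (b : OrthonormalBasis ι ℝ E) {j : ι → ℝ}
    (hT : T0Data μ m (cob b p) (cob b n))
    (hL : LSq μ (Matrix.diagonal j) (cob b p) (cob b n)) {δ e H D l R g : ℝ}
    (hδ : 0 ≤ δ) (hδ1 : δ < 1) (hf : fro (De μ (cob b p) (cob b n)) ≤ δ ^ 2)
    (hH : hh μ (Matrix.diagonal j) (cob b p) (cob b n) ≤ H)
    (he : 1 ≤ e * (m + 1)) (heD : e ≤ D)
    (hD : (1 + e) ^ 2 * (δ ^ 2 + 2 * e * H) ≤ (D * (1 - δ)) ^ 2) (hl : 1 ≤ l)
    (hlk : 2 * l * (D + e) < 1) (hR : 0 < R) (hg : 0 < g)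
    (hs : 1 + (δ * D + e) + 2 * l * D ^ 2 / (1 - 2 * l * (D + e)) + g ≤ R ^ 2) :
    ∫ x, rr j (cob b p) x ^ 2 * sz j (cob b p) (cob b n) x ∂μ
      ≤ R ^ 2 * hh μ (Matrix.diagonal j) (cob b p) (cob b n)
        + (1 + (1 + R) ^ 2) * (1 + R) / (g * R * l) / l * Real.exp (-(l * g) - 2) := by
  have := hT.prob
  have l0 : 0 < l := by linarith
  have hm1 : (0 : ℝ) < m + 1 := by positivity
  have he0 : 0 < e := by
    by_contra hc
    push Not at hc
    nlinarith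
  have hD0 : 0 < D := by linarith
  have hs0 : 0 ≤ 1 + (δ * D + e) + 2 * l * D ^ 2 / (1 - 2 * l * (D + e)) := by
    have : 0 < 1 - 2 * l * (D + e) := by linarith
    positivity
  have h1 := r2s_row h b hl hR hg hs0 hs
    (row_De h b hT hL hδ hδ1 hf hH he heD hD l0.le hlk)
  have e2 : ∫ x, ad b j p n x ∂μ = hh μ (Matrix.diagonal j) (cob b p) (cob b n) := by
    simp only [ad_eq]
    rfl
  rw [e2] at h1
  refine le_trans (le_of_eq ?_) h1
  refine integral_congr_ae (Filter.Eventually.of_forall fun x => ?_)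
  simp only
  rw [rr_sq]
  unfold sz ad qd
  congr 1
  exact Finset.sum_congr rfl fun a _ => by
    simp only [zd, cob]
    ring

/-- numeric form: `k + f ≤ l g + 2`, tail `≤ ε` -/
theorem r2s_num (h : OneP μ m p n) (b : OrthonormalBasis ι ℝ E) {j : ι → ℝ}
    (hT : T0Data μ m (cob b p) (cob b n))
    (hL : LSq μ (Matrix.diagonal j) (cob b p) (cob b n)) {δ e H D l R g ε : ℝ} (k : ℕ)
    (hδ : 0 ≤ δ) (hδ1 : δ < 1) (hf : fro (De μ (cob b p) (cob b n)) ≤ δ ^ 2)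
    (hH : hh μ (Matrix.diagonal j) (cob b p) (cob b n) ≤ H)
    (he : 1 ≤ e * (m + 1)) (heD : e ≤ D)
    (hD : (1 + e) ^ 2 * (δ ^ 2 + 2 * e * H) ≤ (D * (1 - δ)) ^ 2) (hl : 1 ≤ l)
    (hlk : 2 * l * (D + e) < 1) (hR : 0 < R) (hg : 0 < g)
    (hs : 1 + (δ * D + e) + 2 * l * D ^ 2 / (1 - 2 * l * (D + e)) + g ≤ R ^ 2)
    {f : ℝ} (hf0 : 0 ≤ f) (hk : k + f ≤ l * g + 2)
    (hε : (1 + (1 + R) ^ 2) * (1 + R) / (g * R * l) / l
      * ((500 / 1359) ^ k / (1 + f + f ^ 2 / 2)) ≤ ε) :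
    ∫ x, rr j (cob b p) x ^ 2 * sz j (cob b p) (cob b n) x ∂μ
      ≤ R ^ 2 * hh μ (Matrix.diagonal j) (cob b p) (cob b n) + ε := by
  have h1 := r2s_le h b hT hL hδ hδ1 hf hH he heD hD hl hlk hR hg hs
  have l0 : 0 < l := by linarith
  have e1 : -(l * g) - 2 = -(l * g + 2) := by ring
  have h2 : Real.exp (-(l * g + 2)) ≤ (500 / 1359) ^ k / (1 + f + f ^ 2 / 2) := by
    have k1 : Real.exp (-(l * g + 2)) ≤ Real.exp (-(k : ℝ)) * Real.exp (-f) := by
      rw [← Real.exp_add]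
      exact Real.exp_le_exp.2 (by linarith)
    have k2 : Real.exp (-(k : ℝ)) ≤ (500 / 1359) ^ k := by
      have h2 : Real.exp (-(k : ℝ)) = (Real.exp 1 ^ k)⁻¹ := by
        rw [← Real.exp_nat_mul, ← Real.exp_neg, mul_one]
      rw [h2]
      have h3 : (500 / 1359 : ℝ) ^ k = ((1359 / 500) ^ k)⁻¹ := by
        rw [← inv_pow]
        norm_num
      rw [h3]
      have h4 := Real.exp_one_gt_d9
      exact inv_anti₀ (by positivity) (pow_le_pow_left₀ (by norm_num) (by linarith) k)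
    have k3 : Real.exp (-f) ≤ (1 + f + f ^ 2 / 2)⁻¹ := by
      rw [Real.exp_neg]
      exact inv_anti₀ (by positivity) (Real.quadratic_le_exp_of_nonneg hf0)
    rw [div_eq_mul_inv]
    exact k1.trans (mul_le_mul k2 k3 (Real.exp_pos _).le (by positivity))
  rw [e1] at h1
  have h3 := mul_le_mul_of_nonneg_left h2
    (by positivity : 0 ≤ (1 + (1 + R) ^ 2) * (1 + R) / (g * R * l) / l)
  linarith

/-- the weighted radius in the form of `el_cc` -/
theorem r1s_num (h : OneP μ m p n) (b : OrthonormalBasis ι ℝ E) {j : ι → ℝ}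
    (hT : T0Data μ m (cob b p) (cob b n))
    (hL : LSq μ (Matrix.diagonal j) (cob b p) (cob b n)) {δ e H D l R g a ε : ℝ} (k : ℕ)
    (hδ : 0 ≤ δ) (hδ1 : δ < 1) (hf : fro (De μ (cob b p) (cob b n)) ≤ δ ^ 2)
    (hH : hh μ (Matrix.diagonal j) (cob b p) (cob b n) ≤ H)
    (he : 1 ≤ e * (m + 1)) (heD : e ≤ D)
    (hD : (1 + e) ^ 2 * (δ ^ 2 + 2 * e * H) ≤ (D * (1 - δ)) ^ 2) (hl : 0 < l)
    (hlk : 2 * l * (D + e) < 1) (hR : 0 < R) (hg : 0 < g)
    (hs : 1 + (δ * D + e) + 2 * l * D ^ 2 / (1 - 2 * l * (D + e)) + g ≤ R ^ 2)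
    (ha : 0 < a) (hal : a ≤ 2 * l * R - 2 / (1 + R)) {f : ℝ} (hf0 : 0 ≤ f)
    (hk : k + f ≤ l * g + 2)
    (hε : (1 + R) ^ 2 / (a * g * l) * ((500 / 1359) ^ k / (1 + f + f ^ 2 / 2)) ≤ ε) :
    ∫ x, rr j (cob b p) x * sz j (cob b p) (cob b n) x ∂μ
      ≤ R * hh μ (Matrix.diagonal j) (cob b p) (cob b n) + ε :=
  rs_num h b hT hL k hδ hδ1 hf hH he heD hD hl hlk hR hg hs ha hal hf0 hk hε

end oneP

end

end Vale.Agent.P224.R2.H590
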