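import Vale.Agent.P224.R2.H579.MeanEight
import Vale.Agent.P224.R2.H807.Th
import Vale.Agent.P224.R2.H590.Eq2

/-!
The mean normal law from the pointwise splitting: cross term, radius term, linear term.
-/

namespace Vale.Agent.P224.R2.H590

open MeasureTheory Matrix Finset Filter
open Vale.Agent.P224.R2.H728 Vale.Agent.P224.R2.H579 Vale.Agent.P224.R2.H807

set_option linter.unusedSectionVars false

noncomputable section

variable {ι Ω : Type*} [Fintype ι] [DecidableEq ι] [MeasurableSpace Ω] {μ : Measure Ω}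
  {m : ℝ} {x N : ι → Ω → ℝ} {j : ι → ℝ}

/-- the radius `|J x|` -/
def rr (j : ι → ℝ) (x : ι → Ω → ℝ) (ω : Ω) : ℝ := √(∑ a, j a ^ 2 * x a ω ^ 2)

/-- `|z|^2` -/
def sz (j : ι → ℝ) (x N : ι → Ω → ℝ) (ω : Ω) : ℝ := ∑ b, zd j x N b ω * zd j x N b ω

lemma sz_nonneg (j : ι → ℝ) (x N : ι → Ω → ℝ) (ω : Ω) : 0 ≤ sz j x N ω :=
  Finset.sum_nonneg fun _ _ => mul_self_nonneg _

lemma rr_nonneg (j : ι → ℝ) (x : ι → Ω → ℝ) (ω : Ω) : 0 ≤ rr j x ω := Real.sqrt_nonneg _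

lemma rr_sq (j : ι → ℝ) (x : ι → Ω → ℝ) (ω : Ω) : rr j x ω ^ 2 = ∑ a, j a ^ 2 * x a ω ^ 2 :=
  Real.sq_sqrt (Finset.sum_nonneg fun a _ => by positivity)

lemma qj_eq (j : ι → ℝ) (x : ι → Ω → ℝ) (ω : Ω) : qj j x ω = rr j x ω ^ 2 - 1 := by
  rw [rr_sq]; rfl

variable (h : T0Data μ m x N)
include h

lemma bqj (j : ι → ℝ) : BM (qj j x) := by
  unfold qj
  exact (BM.sum _ fun a _ => ((h.bx a).pow 2).const_mul _).sub (BM.const 1)

lemma brr (j : ι → ℝ) : BM (rr j x) := by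
  have b1 : BM fun ω => ∑ a, j a ^ 2 * x a ω ^ 2 := BM.sum _ fun a _ => ((h.bx a).pow 2).const_mul _
  obtain ⟨h1, C, h2⟩ := b1
  refine ⟨h1.sqrt, √C, fun ω => ?_⟩
  rw [abs_of_nonneg (rr_nonneg j x ω)]
  exact Real.sqrt_le_sqrt ((le_abs_self _).trans (h2 ω))

lemma bsz (j : ι → ℝ) : BM (sz j x N) := bS h j

lemma hh_sz (j : ι → ℝ) : hh μ (diagonal j) x N = ∫ ω, sz j x N ω ∂μ := hh_int h j

/-- **The mean normal law from the pointwise splitting.** -/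
theorem el_core (hm : 0 < m) (j : ι → ℝ) {L al ρ B1 R1 Q : ℝ} (hL8 : ∀ a, L ≤ L8 m j a)
    (hal : 0 ≤ al) (hρ : 0 ≤ ρ) (hQ0 : 0 ≤ Q)
    (hP : ∀ v : ι → ℝ, ∑ a, v a ^ 2 = 1 → ∃ v' : ι → ℝ, ∑ a, v' a ^ 2 ≤ 1 ∧ ∀ ω,
      ∑ a, v a * G8 m j (fun b => x b ω) (fun b => N b ω) a
        ≤ qj j x ω * (∑ a, v a * zd j x N a ω) + al * (rr j x ω * sz j x N ω)
          + ρ * (|∑ a, v' a * x a ω| * sz j x N ω))
    (hB : ∀ v' : ι → ℝ, ∑ a, v' a ^ 2 ≤ 1 → ∫ ω, |∑ a, v' a * x a ω| * sz j x N ω ∂μ ≤ B1)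
    (hR : ∫ ω, rr j x ω * sz j x N ω ∂μ ≤ R1) (hQ : ∫ ω, qj j x ω ^ 2 ∂μ ≤ Q ^ 2) :
    L * √(uu μ N) ≤ Q * √(hh μ (diagonal j) x N) + al * R1 + ρ * B1 := by
  have := h.prob
  have bz := h.bzd j
  have hR0 : 0 ≤ R1 := le_trans (integral_nonneg fun ω =>
    mul_nonneg (rr_nonneg j x ω) (sz_nonneg j x N ω)) hR
  have hB0 : 0 ≤ B1 := le_trans (integral_nonneg fun ω =>
    mul_nonneg (abs_nonneg _) (sz_nonneg j x N ω)) (hB (fun _ => 0) (by simp))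
  rcases (Real.sqrt_nonneg (uu μ N)).eq_or_lt with h0 | h0
  · rw [← h0, mul_zero]
    have : 0 ≤ √(hh μ (diagonal j) x N) := Real.sqrt_nonneg _
    positivity
  obtain ⟨v, hv, he⟩ := exists_dir h (√(uu μ N)) h0 rfl
  obtain ⟨v', hv', hp⟩ := hP v hv
  have bl : BM fun ω => ∑ a, v' a * x a ω := BM.sum _ fun a _ => (h.bx a).const_mul _
  have b1 : BM fun ω => qj j x ω * (∑ a, v a * zd j x N a ω) :=
    (bqj h j).mul (BM.sum _ fun a _ => (bz a).const_mul _)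
  have b2 : BM fun ω => al * (rr j x ω * sz j x N ω) := ((brr h j).mul (bsz h j)).const_mul _
  have b3 : BM fun ω => ρ * (|∑ a, v' a * x a ω| * sz j x N ω) :=
    ((H807.BM.abs bl).mul (bsz h j)).const_mul _
  have h1 := law8_dir h hm j v hv he (Real.sqrt_nonneg _) hL8 ((b1.add b2).add b3) hp
  rw [integral_add (b1.add b2).int b3.int, integral_add b1.int b2.int, integral_const_mul,
    integral_const_mul] at h1
  have h2 := cross_le h j v (le_of_eq hv)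
  have h3 : √(∫ ω, qj j x ω ^ 2 ∂μ) ≤ Q := by
    rw [← Real.sqrt_sq hQ0]
    exact Real.sqrt_le_sqrt hQ
  have h4 := mul_le_mul_of_nonneg_right h3 (Real.sqrt_nonneg (hh μ (diagonal j) x N))
  have h5 := (le_abs_self _).trans (h2.trans h4)
  have h6 := mul_le_mul_of_nonneg_left hR hal
  have h7 := mul_le_mul_of_nonneg_left (hB v' hv') hρ
  linarith

/-- the moments of a short vector from those of unit vectors -/
lemma mom_short {k : ℕ} {M : ℝ} (hM0 : 0 ≤ M)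
    (hM : ∀ v : ι → ℝ, ∑ a, v a ^ 2 = 1 → ∫ ω, (∑ a, v a * x a ω) ^ (2 * k) ∂μ ≤ M)
    (hk : 1 ≤ k) (v : ι → ℝ) (hv : ∑ a, v a ^ 2 ≤ 1) :
    ∫ ω, (∑ a, v a * x a ω) ^ (2 * k) ∂μ ≤ M := by
  have := h.prob
  have hn0 : 0 ≤ ∑ a, v a ^ 2 := Finset.sum_nonneg fun a _ => sq_nonneg _
  rcases hn0.eq_or_lt with h0 | h0
  · have hv0 : ∀ a, v a = 0 := by
      intro a
      have := (Finset.sum_eq_zero_iff_of_nonneg fun a _ => sq_nonneg (v a)).1 h0.symm a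
        (Finset.mem_univ a)
      exact pow_eq_zero_iff (two_ne_zero) |>.1 this
    simp only [hv0, zero_mul, Finset.sum_const_zero]
    rw [zero_pow (by omega)]
    simpa using hM0
  · set n := √(∑ a, v a ^ 2) with hn
    have hn1 : 0 < n := Real.sqrt_pos.2 h0
    have hn2 : n ^ 2 = ∑ a, v a ^ 2 := Real.sq_sqrt hn0
    have h1 := hM (fun a => v a / n) (by
      simp only [div_pow]
      rw [← Finset.sum_div, ← hn2, div_self (by positivity)])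
    have e : ∀ ω, (∑ a, v a * x a ω) ^ (2 * k) = n ^ (2 * k) * (∑ a, v a / n * x a ω) ^ (2 * k) := by
      intro ω
      rw [← mul_pow, Finset.mul_sum]
      congr 1
      exact Finset.sum_congr rfl fun a _ => by field_simp
    simp_rw [e]
    rw [integral_const_mul]
    have h2 : n ^ (2 * k) ≤ 1 := by
      rw [pow_mul, hn2]
      exact pow_le_one₀ hn0 hv
    have h3 : 0 ≤ ∫ ω, (∑ a, v a / n * x a ω) ^ (2 * k) ∂μ :=
      integral_nonneg fun ω => (even_two_mul k).pow_nonneg _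
    nlinarith

/-- the linear term by the even moments -/
lemma lin_short {ρ : ℝ} (hρ : 0 ≤ ρ) (hj : ∀ a, |j a| ≤ ρ) {k : ℕ} (hk : 1 ≤ k) {t M : ℝ}
    (ht : 0 < t) (hM0 : 0 ≤ M)
    (hM : ∀ v : ι → ℝ, ∑ a, v a ^ 2 = 1 → ∫ ω, (∑ a, v a * x a ω) ^ (2 * k) ∂μ ≤ M)
    (v : ι → ℝ) (hv : ∑ a, v a ^ 2 ≤ 1) :
    ∫ ω, |∑ a, v a * x a ω| * sz j x N ω ∂μ ≤ Bl k t M ρ (hh μ (diagonal j) x N) :=
  lin_le h hρ hj hk ht (mom_short h hM0 hM hk v hv)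

/-- **The mean normal law, closed in the moments.**  The linear term is
`ρ (t (1 - 1/2k) η + t/(2k) M/t^(2k) (1+ρ)^2)`. -/
theorem el_kb (hm : 3 ≤ m) (hL : LSq μ (Matrix.diagonal j) x N) {L al ρ rb δ t M Q : ℝ}
    (hL8 : ∀ a, L ≤ L8 m j a) (hal : 0 ≤ al) (hρ : 0 ≤ ρ) (hj : ∀ a, |j a| ≤ ρ)
    (hδ : 0 ≤ δ) (hδ1 : δ < 1) (hf : fro (De μ x N) ≤ δ ^ 2)
    (hQ0 : 0 ≤ Q) (hQ : 16 / 7 * ((δ ^ 2 + 2 / (m + 1) * hh μ (Matrix.diagonal j) x N)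
        / (1 - δ) ^ 2) + hh μ (Matrix.diagonal j) x N ^ 2 ≤ Q ^ 2)
    (hP : ∀ v : ι → ℝ, ∑ a, v a ^ 2 = 1 → ∃ v' : ι → ℝ, ∑ a, v' a ^ 2 ≤ 1 ∧ ∀ ω,
      ∑ a, v a * G8 m j (fun b => x b ω) (fun b => N b ω) a
        ≤ qj j x ω * (∑ a, v a * zd j x N a ω) + al * (rr j x ω * sz j x N ω)
          + ρ * (|∑ a, v' a * x a ω| * sz j x N ω))
    {k : ℕ} (hk : 1 ≤ k) (ht : 0 < t) (hM0 : 0 ≤ M)
    (hM : ∀ v : ι → ℝ, ∑ a, v a ^ 2 = 1 → ∫ ω, (∑ a, v a * x a ω) ^ (2 * k) ∂μ ≤ M)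
    (hR : ∫ ω, rr j x ω * sz j x N ω ∂μ ≤ rb * hh μ (diagonal j) x N) :
    L * √(uu μ N) ≤ Q * √(hh μ (diagonal j) x N)
      + (al * rb + ρ * (t * (1 - 1 / (2 * k)))) * hh μ (diagonal j) x N
      + ρ * (t / (2 * k) / t ^ (2 * k) * M * (1 + ρ) ^ 2) := by
  have h1 := el_core h (by linarith) j hL8 hal hρ hQ0 hP
    (fun v' hv' => lin_short h hρ hj hk ht hM0 hM v' hv') hR
    ((Eq2' h hm hL hδ hδ1 hf).trans hQ)
  refine h1.trans (le_of_eq ?_)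
  unfold Bl
  ring

end

end Vale.Agent.P224.R2.H590
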