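import Vale.Agent.P224.R2.H590.ElKB
import Vale.Agent.P224.R2.H662.RareD

/-!
The second moment of `|J x|^2 - 1` from the defect and the radius: linear in the defect.
-/

namespace Vale.Agent.P224.R2.H590

open MeasureTheory Matrix Finset Filter
open Vale.Agent.P224.R2.H728 Vale.Agent.P224.R2.H579
open scoped RealInnerProductSpace

set_option linter.unusedSectionVars false

noncomputable section

section

variable {ι Ω : Type*} [Fintype ι] [DecidableEq ι] [MeasurableSpace Ω] {μ : Measure Ω}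
  {m : ℝ} {x N : ι → Ω → ℝ} {j : ι → ℝ}

variable (h : T0Data μ m x N)
include h

/-- `(|Jx| - 1)^2 ≤ |z|^2` -/
lemma rr_sub_sq_le (j : ι → ℝ) (ω : Ω) : (rr j x ω - 1) ^ 2 ≤ sz j x N ω := by
  have h1 : (∑ a, N a ω * (j a * x a ω)) ^ 2 ≤ rr j x ω ^ 2 := by
    have := Finset.sum_mul_sq_le_sq_mul_sq Finset.univ (fun a => N a ω) fun a => j a * x a ω
    rw [h.uN, one_mul] at this
    refine this.trans (le_of_eq ?_)
    rw [rr_sq]
    exact Finset.sum_congr rfl fun a _ => by ring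
  have h2 := (abs_le.1 (abs_le_of_sq_le_sq h1 (rr_nonneg j x ω))).2
  have h3 : sz j x N ω = 1 - 2 * (∑ a, N a ω * (j a * x a ω)) + rr j x ω ^ 2 := by
    rw [rr_sq, ← h.uN ω, Finset.mul_sum, ← Finset.sum_sub_distrib, ← Finset.sum_add_distrib]
    unfold sz
    refine Finset.sum_congr rfl fun a _ => ?_
    simp only [zd]
    ring
  rw [h3]
  nlinarith

/-- `q^2 ≤ (1 + |Jx|)^2 |z|^2` -/
lemma qj_sq_le (j : ι → ℝ) (ω : Ω) : qj j x ω ^ 2 ≤ (1 + rr j x ω) ^ 2 * sz j x N ω := by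
  have h1 := rr_sub_sq_le h j ω
  have e : qj j x ω ^ 2 = (1 + rr j x ω) ^ 2 * (rr j x ω - 1) ^ 2 := by
    rw [qj_eq]; ring
  rw [e]
  exact mul_le_mul_of_nonneg_left h1 (sq_nonneg _)

/-- **`E q^2` is linear in the defect** -/
theorem qj_sq_lin (j : ι → ℝ) {c R : ℝ} (hR : 0 < R)
    (hc : ∫ ω, rr j x ω ^ 2 * sz j x N ω ∂μ ≤ c * hh μ (diagonal j) x N) :
    ∫ ω, qj j x ω ^ 2 ∂μ ≤ ((1 + R) + (1 + 1 / R) * c) * hh μ (diagonal j) x N := by
  have := h.prob
  have b1 : BM fun ω => (1 + R) * sz j x N ω := (bsz h j).const_mul _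
  have b2 : BM fun ω => (1 + 1 / R) * (rr j x ω ^ 2 * sz j x N ω) :=
    (((brr h j).pow 2).mul (bsz h j)).const_mul _
  have h1 : ∫ ω, qj j x ω ^ 2 ∂μ
      ≤ ∫ ω, ((1 + R) * sz j x N ω + (1 + 1 / R) * (rr j x ω ^ 2 * sz j x N ω)) ∂μ := by
    refine integral_mono ((bqj h j).pow 2).int (b1.add b2).int fun ω => ?_
    simp only
    refine (qj_sq_le h j ω).trans ?_
    have k0 := sz_nonneg j x N ω
    set r := rr j x ω
    set s := sz j x N ω
    have k1 : 2 * r ≤ R + r ^ 2 / R := by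
      have : 0 ≤ (R - r) ^ 2 / R := by positivity
      have e : (R - r) ^ 2 / R = R + r ^ 2 / R - 2 * r := by
        field_simp
        ring
      linarith
    have k2 : (1 + r) ^ 2 ≤ (1 + R) + (1 + 1 / R) * r ^ 2 := by
      have e : (1 + 1 / R) * r ^ 2 = r ^ 2 + r ^ 2 / R := by ring
      nlinarith
    calc (1 + r) ^ 2 * s ≤ ((1 + R) + (1 + 1 / R) * r ^ 2) * s :=
          mul_le_mul_of_nonneg_right k2 k0
      _ = (1 + R) * s + (1 + 1 / R) * (r ^ 2 * s) := by ring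
  rw [integral_add b1.int b2.int, integral_const_mul, integral_const_mul, ← hh_sz h j] at h1
  have h2 : (0 : ℝ) ≤ 1 + 1 / R := by positivity
  nlinarith [mul_le_mul_of_nonneg_left hc h2]

/-- the crude form -/
theorem qj_sq_two (j : ι → ℝ) {c : ℝ}
    (hc : ∫ ω, rr j x ω ^ 2 * sz j x N ω ∂μ ≤ c * hh μ (diagonal j) x N) :
    ∫ ω, qj j x ω ^ 2 ∂μ ≤ (2 + 2 * c) * hh μ (diagonal j) x N := by
  have h1 := qj_sq_lin h j one_pos hc
  norm_num at h1
  exact h1

/-- the term with the radius from the same input: `E r |z|^2 ≤ (R/2 + c/(2R)) h` -/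
theorem rr_sz_lin (j : ι → ℝ) {c R : ℝ} (hR : 0 < R)
    (hc : ∫ ω, rr j x ω ^ 2 * sz j x N ω ∂μ ≤ c * hh μ (diagonal j) x N) :
    ∫ ω, rr j x ω * sz j x N ω ∂μ ≤ (R / 2 + c / (2 * R)) * hh μ (diagonal j) x N := by
  have := h.prob
  have b1 : BM fun ω => R / 2 * sz j x N ω := (bsz h j).const_mul _
  have b2 : BM fun ω => 1 / (2 * R) * (rr j x ω ^ 2 * sz j x N ω) :=
    (((brr h j).pow 2).mul (bsz h j)).const_mul _
  have h1 : ∫ ω, rr j x ω * sz j x N ω ∂μ
      ≤ ∫ ω, (R / 2 * sz j x N ω + 1 / (2 * R) * (rr j x ω ^ 2 * sz j x N ω)) ∂μ := by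
    refine integral_mono ((brr h j).mul (bsz h j)).int (b1.add b2).int fun ω => ?_
    simp only
    have k0 := sz_nonneg j x N ω
    set r := rr j x ω
    set s := sz j x N ω
    have k1 : r ≤ R / 2 + 1 / (2 * R) * r ^ 2 := by
      have : 0 ≤ (R - r) ^ 2 / (2 * R) := by positivity
      have e : (R - r) ^ 2 / (2 * R) = R / 2 + 1 / (2 * R) * r ^ 2 - r := by
        field_simp
        ring
      linarith
    calc r * s ≤ (R / 2 + 1 / (2 * R) * r ^ 2) * s := mul_le_mul_of_nonneg_right k1 k0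
      _ = _ := by ring
  rw [integral_add b1.int b2.int, integral_const_mul, integral_const_mul, ← hh_sz h j] at h1
  have h2 : (0 : ℝ) ≤ 1 / (2 * R) := by positivity
  have h3 := mul_le_mul_of_nonneg_left hc h2
  have e : (R / 2 + c / (2 * R)) * hh μ (diagonal j) x N
      = R / 2 * hh μ (diagonal j) x N + 1 / (2 * R) * (c * hh μ (diagonal j) x N) := by ring
  rw [e]
  linarith

end

section oneP

open Vale.Agent.P224.R2.H470 Vale.Agent.P224.R2.H662

variable {X : Type*} {E : Type*} [NormedAddCommGroup E] [InnerProductSpace ℝ E]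
  [FiniteDimensional ℝ E] [TopologicalSpace X] [MeasurableSpace X] [CompactSpace X] [BorelSpace X]
  {μ : Measure X} {m : ℕ} {p n : X → E} {ι : Type*} [Fintype ι] [DecidableEq ι]

lemma rr_sq_qd (b : OrthonormalBasis ι ℝ E) (j : ι → ℝ) (x : X) :
    rr j (cob b p) x ^ 2 = qd b j p x := by
  rw [rr_sq]
  rfl

lemma sz_ad (b : OrthonormalBasis ι ℝ E) (j : ι → ℝ) (x : X) :
    sz j (cob b p) (cob b n) x = ad b j p n x := by
  unfold sz ad
  refine Finset.sum_congr rfl fun a _ => ?_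
  simp only [zd]
  exact (sq _).symm

/-- **`E q^2 ≤ ((1+R)^2 + 1/50) h`** from the rare facts -/
theorem qj_sq_rare (b : OrthonormalBasis ι ℝ E) {j : ι → ℝ}
    (hT : T0Data μ m (cob b p) (cob b n)) {R : ℝ} (hR : 1 ≤ R)
    (hq : ∫ x, qd b j p x * ad b j p n x ∂μ
      ≤ (R ^ 2 + 1 / 100) * hh μ (Matrix.diagonal j) (cob b p) (cob b n)) :
    ∫ x, qj j (cob b p) x ^ 2 ∂μ
      ≤ ((1 + R) ^ 2 + 1 / 50) * hh μ (Matrix.diagonal j) (cob b p) (cob b n) := by
  have hR0 : 0 < R := by linarith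
  have hc : ∫ x, rr j (cob b p) x ^ 2 * sz j (cob b p) (cob b n) x ∂μ
      ≤ (R ^ 2 + 1 / 100) * hh μ (Matrix.diagonal j) (cob b p) (cob b n) := by
    simp only [rr_sq_qd, sz_ad]
    exact hq
  have h1 := qj_sq_lin hT j hR0 hc
  have h2 : 0 ≤ hh μ (Matrix.diagonal j) (cob b p) (cob b n) := hT.hh_nonneg _
  have h3 : (1 + R) + (1 + 1 / R) * (R ^ 2 + 1 / 100) ≤ (1 + R) ^ 2 + 1 / 50 := by
    have e : (1 + 1 / R) * (R ^ 2 + 1 / 100) = R ^ 2 + R + 1 / 100 + 1 / R / 100 := by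
      field_simp
      ring
    have : 1 / R ≤ 1 := by rw [div_le_one hR0]; exact hR
    rw [e]
    nlinarith
  exact h1.trans (mul_le_mul_of_nonneg_right h3 h2)

end oneP

end

end Vale.Agent.P224.R2.H590
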