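import Vale.Agent.P224.R2.H590.Eq2
import Vale.Agent.P224.R2.H579.MeanEight
import Vale.Agent.P224.R2.H579.ELawJ

/-!
The factor of the mean normal law from below, with the small bound of the third trace.
-/

namespace Vale.Agent.P224.R2.H590

open MeasureTheory Matrix Finset Filter
open Vale.Agent.P224.R2.H728 Vale.Agent.P224.R2.H579

set_option linter.unusedSectionVars false

noncomputable section

variable {ι Ω : Type*} [Fintype ι] [DecidableEq ι] [MeasurableSpace Ω] {μ : Measure Ω}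
  {m : ℝ} {x N : ι → Ω → ℝ} {j : ι → ℝ}

/-- the third trace of the weights -/
lemma tau_le (h : T0Data μ m x N) (hm : 0 < m) (hL : LSq μ (diagonal j) x N) {δ H o s : ℝ}
    (hδ : 0 ≤ δ) (hδ1 : δ < 1) (hf : fro (De μ x N) ≤ δ ^ 2) (hH : hh μ (diagonal j) x N ≤ H)
    (ho0 : 0 ≤ o) (ho : δ ^ 2 + 2 / (m + 1) * H ≤ (o * (1 - δ)) ^ 2) (hs0 : 0 ≤ s)
    (hs : m + 2 + δ * (o * (m + 2)) ≤ s ^ 2) :
    |∑ b, j b * (j b ^ 2 / ((m + 2) / 2 + j b ^ 2))|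
      ≤ s * (δ + (m + 2) * o) / ((m + 4) / 2) := by
  have h7 : (0 : ℝ) < 1 - δ := by linarith
  have hm1 : (0 : ℝ) < m + 1 := by linarith
  have hO0 : 0 ≤ o * (m + 2) := by positivity
  have hw : ∑ a, (j a ^ 2 - 1) ^ 2 ≤ (o * (m + 2)) ^ 2 := by
    refine (w_sq h hm.le hL hδ hδ1 hf).trans ?_
    have k1 : δ ^ 2 + 2 / (m + 1) * hh μ (diagonal j) x N ≤ (o * (1 - δ)) ^ 2 := by
      refine le_trans ?_ ho
      gcongr
    calc (m + 2) ^ 2 * ((δ ^ 2 + 2 / (m + 1) * hh μ (diagonal j) x N) / (1 - δ) ^ 2)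
        ≤ (m + 2) ^ 2 * ((o * (1 - δ)) ^ 2 / (1 - δ) ^ 2) := by gcongr
      _ = (o * (m + 2)) ^ 2 := by
          field_simp
  have hj2 : ∑ a, j a ^ 2 ≤ s ^ 2 := by
    have k1 := h.w_tr_le hm.le hL hδ hf hO0 hw
    have k : ∑ a, (j a ^ 2 - 1) = ∑ a, j a ^ 2 - (m + 2) := by
      rw [Finset.sum_sub_distrib, Finset.sum_const, nsmul_eq_mul, mul_one, ← h.card]
      rfl
    linarith
  have htr : |∑ a, j a| ≤ δ * s := by
    refine abs_le_of_sq_le_sq ((h.j_tr_sq hm.le hL hδ hf hO0 hw).trans ?_) (by positivity)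
    rw [mul_pow]
    exact mul_le_mul_of_nonneg_left hs (sq_nonneg _)
  have e1 : ∀ b, j b * (j b ^ 2 / ((m + 2) / 2 + j b ^ 2))
      = (j b + (m + 2) / 2 * (j b * (j b ^ 2 - 1)) / ((m + 2) / 2 + j b ^ 2)) / ((m + 4) / 2) := by
    intro b
    have : (m + 2) / 2 + j b ^ 2 ≠ 0 := by positivity
    have : m + 4 ≠ 0 := by positivity
    field_simp
    ring
  simp only [e1]
  rw [← Finset.sum_div, abs_div, abs_of_pos (by positivity : (0 : ℝ) < (m + 4) / 2)]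
  refine div_le_div_of_nonneg_right ?_ (by positivity)
  rw [Finset.sum_add_distrib]
  refine (abs_add_le _ _).trans ?_
  have k2 : |∑ b, (m + 2) / 2 * (j b * (j b ^ 2 - 1)) / ((m + 2) / 2 + j b ^ 2)|
      ≤ s * (o * (m + 2)) := by
    refine (Finset.abs_sum_le_sum_abs _ _).trans ?_
    have k3 : ∀ b, |(m + 2) / 2 * (j b * (j b ^ 2 - 1)) / ((m + 2) / 2 + j b ^ 2)|
        ≤ |j b| * |j b ^ 2 - 1| := by
      intro b
      rw [abs_div, abs_mul, abs_mul, abs_of_pos (by positivity : (0 : ℝ) < (m + 2) / 2),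
        abs_of_pos (by positivity : (0 : ℝ) < (m + 2) / 2 + j b ^ 2),
        div_le_iff₀ (by positivity), mul_comm ((m + 2) / 2)]
      refine mul_le_mul_of_nonneg_left ?_ (by positivity)
      nlinarith [sq_nonneg (j b)]
    refine (Finset.sum_le_sum fun b _ => k3 b).trans ?_
    refine (le_abs_self _).trans (abs_le_of_sq_le_sq ?_ (by positivity))
    refine (Finset.sum_mul_sq_le_sq_mul_sq _ _ _).trans ?_
    simp only [sq_abs]
    rw [mul_pow]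
    exact mul_le_mul hj2 hw (Finset.sum_nonneg fun _ _ => sq_nonneg _) (sq_nonneg _)
  nlinarith

/-- **the factor from below, numeric form** -/
theorem L8_num (h : T0Data μ m x N) (hm : 0 < m) (hL : LSq μ (diagonal j) x N)
    {δ H ρ o s τ e L : ℝ} (hδ : 0 ≤ δ) (hδ1 : δ < 1) (hf : fro (De μ x N) ≤ δ ^ 2)
    (hH : hh μ (diagonal j) x N ≤ H) (hj : ∀ a, |j a| ≤ ρ)
    (ho0 : 0 ≤ o) (ho : δ ^ 2 + 2 / (m + 1) * H ≤ (o * (1 - δ)) ^ 2) (hs0 : 0 ≤ s)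
    (hs : m + 2 + δ * (o * (m + 2)) ≤ s ^ 2)
    (hτ : s * (δ + (m + 2) * o) / ((m + 4) / 2) ≤ (m + 1) * τ) (he : Ew δ H ≤ e)
    (hLn : L ≤ 1 - 2 * m / ((m + 1) * (m + 4)) - 4 * ρ ^ 2 / ((m + 1) * (m + 4))
      - 2 * e * (m + 2 + ρ ^ 2) / (m + 1) - ρ * τ) (a : ι) : L ≤ L8 m j a := by
  have hm1 : (0 : ℝ) < m + 1 := by linarith
  have hτ1 := (tau_le h hm hL hδ hδ1 hf hH ho0 ho hs0 hs).trans hτ
  have h1 := L8_ge h hm hL hδ hδ1 hf hτ1 a
  have hτ0 : 0 ≤ τ := by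
    have : 0 ≤ (m + 1) * τ := (abs_nonneg _).trans hτ1
    by_contra hc
    push Not at hc
    nlinarith
  have q1 : j a ^ 2 ≤ ρ ^ 2 := by
    rw [← sq_abs]
    exact pow_le_pow_left₀ (abs_nonneg _) (hj a) 2
  have q2 : |j a| * τ ≤ ρ * τ := mul_le_mul_of_nonneg_right (hj a) hτ0
  have q3 : 0 ≤ hh μ (diagonal j) x N := h.hh_nonneg _
  have q4 : Ew δ (hh μ (diagonal j) x N) ≤ e := (Ew_mono hδ hδ1 q3 hH).trans he
  have q5 : 0 ≤ Ew δ (hh μ (diagonal j) x N) := Ew_nonneg hδ hδ1 q3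
  have q6 : 4 * j a ^ 2 / ((m + 1) * (m + 4)) ≤ 4 * ρ ^ 2 / ((m + 1) * (m + 4)) := by gcongr
  have q7 : 2 * Ew δ (hh μ (diagonal j) x N) * (m + 2 + j a ^ 2) / (m + 1)
      ≤ 2 * e * (m + 2 + ρ ^ 2) / (m + 1) := by
    have q8 : 0 ≤ e := q5.trans q4
    gcongr
  linarith

end

end Vale.Agent.P224.R2.H590
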