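import Vale.Agent.P224.R2.H590.ElKB

/-!
The pointwise bound of the integrand of the mean normal law.
-/

namespace Vale.Agent.P224.R2.H590

open MeasureTheory Matrix Finset Filter
open Vale.Agent.P224.R2.H728 Vale.Agent.P224.R2.H579

set_option linter.unusedSectionVars false

noncomputable section

variable {ι : Type*} [Fintype ι] [DecidableEq ι] {m : ℝ} {j u n v : ι → ℝ}

/-- the deviation vector -/
def zz (j u n : ι → ℝ) (a : ι) : ℝ := n a - j a * u a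

/-- the splitting of the integrand -/
lemma G8_split (hm : 0 < m) (j u n v : ι → ℝ) :
    ∑ a, v a * G8 m j u n a
      = -(∑ a, v a * zz j u n a) * (∑ b, zz j u n b ^ 2)
        + 1 / 2 * (∑ a, v a * (j a * u a)) * (∑ b, zz j u n b ^ 2)
        - 3 * (∑ a, v a * zz j u n a) * (∑ b, j b * u b * zz j u n b)
        + (∑ a, ((m + 2) / 2 + j a ^ 2) * v a * u a)
          * (∑ b, j b / ((m + 2) / 2 + j b ^ 2) * zz j u n b ^ 2)
        + 1 / 2 * (∑ b, (∑ a, v a * (j a * u a) * (j a ^ 2 - j b ^ 2))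
          / ((m + 2) / 2 + j b ^ 2) * zz j u n b ^ 2)
        - ∑ a, ∑ b, (j a - j b) * (j a + 2 * j b) / ((m + 2) / 2 + j b ^ 2)
          * (v a * zz j u n a * (j b * u b * zz j u n b)) := by
  have e0 : (∑ b, (∑ a, v a * (j a * u a) * (j a ^ 2 - j b ^ 2))
          / ((m + 2) / 2 + j b ^ 2) * zz j u n b ^ 2)
      = ∑ a, ∑ b, v a * (j a * u a) * (j a ^ 2 - j b ^ 2) / ((m + 2) / 2 + j b ^ 2)
          * zz j u n b ^ 2 := by
    rw [Finset.sum_comm]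
    refine Finset.sum_congr rfl fun b _ => ?_
    rw [Finset.sum_div, Finset.sum_mul]
  rw [e0]
  have e1 : -(∑ a, v a * zz j u n a) * (∑ b, zz j u n b ^ 2)
      = ∑ a, ∑ b, -(v a * zz j u n a) * zz j u n b ^ 2 := by
    rw [← Finset.sum_neg_distrib, Finset.sum_mul_sum]
  have e2 : 1 / 2 * (∑ a, v a * (j a * u a)) * (∑ b, zz j u n b ^ 2)
      = ∑ a, ∑ b, 1 / 2 * (v a * (j a * u a)) * zz j u n b ^ 2 := by
    rw [mul_assoc, Finset.sum_mul_sum, Finset.mul_sum]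
    refine Finset.sum_congr rfl fun a _ => ?_
    rw [Finset.mul_sum]
    exact Finset.sum_congr rfl fun b _ => by ring
  have e3 : 3 * (∑ a, v a * zz j u n a) * (∑ b, j b * u b * zz j u n b)
      = ∑ a, ∑ b, 3 * (v a * zz j u n a) * (j b * u b * zz j u n b) := by
    rw [mul_assoc, Finset.sum_mul_sum, Finset.mul_sum]
    refine Finset.sum_congr rfl fun a _ => ?_
    rw [Finset.mul_sum]
    exact Finset.sum_congr rfl fun b _ => by ring
  have e4 : (∑ a, ((m + 2) / 2 + j a ^ 2) * v a * u a)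
          * (∑ b, j b / ((m + 2) / 2 + j b ^ 2) * zz j u n b ^ 2)
      = ∑ a, ∑ b, ((m + 2) / 2 + j a ^ 2) * v a * u a
          * (j b / ((m + 2) / 2 + j b ^ 2) * zz j u n b ^ 2) := by
    rw [Finset.sum_mul_sum]
  rw [e1, e2, e3, e4, Finset.mul_sum]
  simp only [Finset.mul_sum]
  rw [← Finset.sum_add_distrib, ← Finset.sum_sub_distrib, ← Finset.sum_add_distrib,
    ← Finset.sum_add_distrib, ← Finset.sum_sub_distrib]
  refine Finset.sum_congr rfl fun a _ => ?_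
  rw [← Finset.sum_add_distrib, ← Finset.sum_sub_distrib, ← Finset.sum_add_distrib,
    ← Finset.sum_add_distrib, ← Finset.sum_sub_distrib]
  unfold G8
  have e5 : v a * (-(n a - j a * u a) * (∑ b, (n b - j b * u b) ^ 2)
      + u a * (∑ b, ((m + 2) / 2 + j a ^ 2) * (j b + j a / 2) / ((m + 2) / 2 + j b ^ 2)
        * (n b - j b * u b) ^ 2)
      - (n a - j a * u a) * (∑ b, j b * (3 * ((m + 2) / 2) + j a ^ 2 + j a * j b + j b ^ 2)
        / ((m + 2) / 2 + j b ^ 2) * ((n b - j b * u b) * u b)))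
    = ∑ b, v a * (-(n a - j a * u a) * (n b - j b * u b) ^ 2
      + u a * (((m + 2) / 2 + j a ^ 2) * (j b + j a / 2) / ((m + 2) / 2 + j b ^ 2)
        * (n b - j b * u b) ^ 2)
      - (n a - j a * u a) * (j b * (3 * ((m + 2) / 2) + j a ^ 2 + j a * j b + j b ^ 2)
        / ((m + 2) / 2 + j b ^ 2) * ((n b - j b * u b) * u b))) := by
    rw [← Finset.mul_sum, Finset.sum_sub_distrib, Finset.sum_add_distrib, ← Finset.mul_sum,
      ← Finset.mul_sum, ← Finset.mul_sum]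
  rw [e5]
  refine Finset.sum_congr rfl fun b _ => ?_
  have h0 : (m + 2) / 2 + j b ^ 2 ≠ 0 := by positivity
  unfold zz
  field_simp
  ring

/-- the exact Cauchy-Schwarz inequality of the main term -/
lemma main_cs (hn : ∑ a, n a ^ 2 = 1) (hv : ∑ a, v a ^ 2 ≤ 1) :
    (∑ b, zz j u n b ^ 2) * (∑ a, v a * n a)
        + (∑ a, j a ^ 2 * u a ^ 2 - 1) * (∑ a, v a * zz j u n a)
      ≤ √(∑ a, j a ^ 2 * u a ^ 2) * (∑ b, zz j u n b ^ 2) := by
  set s := ∑ b, zz j u n b ^ 2 with hs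
  set q := ∑ a, j a ^ 2 * u a ^ 2 - 1 with hq
  have hr0 : 0 ≤ ∑ a, j a ^ 2 * u a ^ 2 := Finset.sum_nonneg fun a _ => by positivity
  have hs0 : 0 ≤ s := Finset.sum_nonneg fun a _ => sq_nonneg _
  have e1 : s * (∑ a, v a * n a) + q * (∑ a, v a * zz j u n a)
      = ∑ a, v a * (s * n a + q * zz j u n a) := by
    rw [Finset.mul_sum, Finset.mul_sum, ← Finset.sum_add_distrib]
    exact Finset.sum_congr rfl fun a _ => by ring
  have e2 : 2 * ∑ a, n a * zz j u n a = s - q := by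
    rw [hs, hq, ← hn, Finset.mul_sum, ← Finset.sum_sub_distrib, ← Finset.sum_sub_distrib]
    refine Finset.sum_congr rfl fun a _ => ?_
    unfold zz
    ring
  have e3 : ∑ a, (s * n a + q * zz j u n a) ^ 2 = s ^ 2 * (∑ a, j a ^ 2 * u a ^ 2) := by
    have k : ∑ a, (s * n a + q * zz j u n a) ^ 2
        = s ^ 2 * (∑ a, n a ^ 2) + s * q * (2 * ∑ a, n a * zz j u n a)
          + q ^ 2 * ∑ a, zz j u n a ^ 2 := by
      rw [Finset.mul_sum, Finset.mul_sum, Finset.mul_sum, Finset.mul_sum, ← Finset.sum_add_distrib,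
        ← Finset.sum_add_distrib]
      exact Finset.sum_congr rfl fun a _ => by ring
    rw [k, e2, hn, ← hs]
    have : ∑ a, j a ^ 2 * u a ^ 2 = q + 1 := by rw [hq]; ring
    rw [this]
    ring
  rw [e1]
  have h1 := Finset.sum_mul_sq_le_sq_mul_sq Finset.univ v fun a => s * n a + q * zz j u n a
  rw [e3] at h1
  have h2 : (∑ a, v a * (s * n a + q * zz j u n a)) ^ 2
      ≤ (√(∑ a, j a ^ 2 * u a ^ 2) * s) ^ 2 := by
    rw [mul_pow, Real.sq_sqrt hr0]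
    refine h1.trans ?_
    have : 0 ≤ s ^ 2 * ∑ a, j a ^ 2 * u a ^ 2 := by positivity
    nlinarith
  exact abs_le_of_sq_le_sq h2 (by positivity) |>.trans' (le_abs_self _)

/-- the term with the position -/
lemma T2_le {H ρ : ℝ} (hρ : 0 < ρ) (hH : ρ ^ 2 ≤ H) (hj : ∀ a, |j a| ≤ ρ) (z : ι → ℝ) :
    (∑ a, (H + j a ^ 2) * v a * u a) * (∑ b, j b / (H + j b ^ 2) * z b ^ 2)
      ≤ ρ * (|∑ a, (H + j a ^ 2) * v a / (H + ρ ^ 2) * u a| * ∑ b, z b ^ 2) := by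
  have hH0 : 0 < H := lt_of_lt_of_le (by positivity) hH
  have hθ : 0 < H + ρ ^ 2 := by positivity
  have e1 : ∑ a, (H + j a ^ 2) * v a * u a
      = (H + ρ ^ 2) * ∑ a, (H + j a ^ 2) * v a / (H + ρ ^ 2) * u a := by
    rw [Finset.mul_sum]
    refine Finset.sum_congr rfl fun a _ => ?_
    field_simp
  have h1 : ∀ b, |j b / (H + j b ^ 2)| ≤ ρ / (H + ρ ^ 2) := by
    intro b
    have hb := hj b
    have h0 : 0 < H + j b ^ 2 := by positivity
    rw [abs_div, abs_of_pos h0, div_le_div_iff₀ h0 hθ, ← sq_abs (j b)]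
    have k0 := abs_nonneg (j b)
    have k1 : |j b| * ρ ≤ H := by nlinarith
    nlinarith [mul_nonneg (sub_nonneg.2 hb) (sub_nonneg.2 k1)]
  have h2 : |∑ b, j b / (H + j b ^ 2) * z b ^ 2| ≤ ρ / (H + ρ ^ 2) * ∑ b, z b ^ 2 := by
    refine (Finset.abs_sum_le_sum_abs _ _).trans ?_
    rw [Finset.mul_sum]
    refine Finset.sum_le_sum fun b _ => ?_
    rw [abs_mul, abs_of_nonneg (sq_nonneg (z b))]
    exact mul_le_mul_of_nonneg_right (h1 b) (sq_nonneg _)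
  refine (le_abs_self _).trans ?_
  rw [abs_mul, e1, abs_mul, abs_of_pos hθ]
  have h3 := mul_le_mul_of_nonneg_left h2 (mul_nonneg hθ.le
    (abs_nonneg (∑ a, (H + j a ^ 2) * v a / (H + ρ ^ 2) * u a)))
  refine h3.trans (le_of_eq ?_)
  field_simp

/-- the short vector of the linear term -/
lemma short_vec {H ρ : ℝ} (hH0 : 0 < H) (hj : ∀ a, |j a| ≤ ρ) (hv : ∑ a, v a ^ 2 ≤ 1) :
    ∑ a, ((H + j a ^ 2) * v a / (H + ρ ^ 2)) ^ 2 ≤ 1 := by
  refine le_trans (Finset.sum_le_sum fun a _ => ?_) hv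
  have h1 : j a ^ 2 ≤ ρ ^ 2 := by
    rw [← sq_abs]
    exact pow_le_pow_left₀ (abs_nonneg _) (hj a) 2
  have h0 : 0 < H + j a ^ 2 := by positivity
  have hθ : 0 < H + ρ ^ 2 := by positivity
  have e : (H + j a ^ 2) * v a / (H + ρ ^ 2) = (H + j a ^ 2) / (H + ρ ^ 2) * v a := by ring
  rw [e, mul_pow]
  have h2 : ((H + j a ^ 2) / (H + ρ ^ 2)) ^ 2 ≤ 1 := by
    apply pow_le_one₀ (by positivity)
    rw [div_le_one hθ]
    linarith
  nlinarith [sq_nonneg (v a)]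

lemma sum_abs_mul_le (f g : ι → ℝ) : ∑ a, |f a * g a| ≤ √(∑ a, f a ^ 2) * √(∑ a, g a ^ 2) := by
  have h1 := Finset.sum_mul_sq_le_sq_mul_sq Finset.univ (fun a => |f a|) fun a => |g a|
  simp only [sq_abs] at h1
  rw [← Real.sqrt_mul (Finset.sum_nonneg fun a _ => sq_nonneg _)]
  have e : ∑ a, |f a * g a| = ∑ a, |f a| * |g a| := Finset.sum_congr rfl fun a _ => abs_mul _ _
  rw [e]
  exact (le_abs_self _).trans (Real.abs_le_sqrt h1)

/-- the correction of the term with the radius -/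
lemma corr3_le {H ρ : ℝ} (hH0 : 0 < H) (hj : ∀ a, |j a| ≤ ρ) (hv : ∑ a, v a ^ 2 ≤ 1)
    (z : ι → ℝ) :
    ∑ b, (∑ a, v a * (j a * u a) * (j a ^ 2 - j b ^ 2)) / (H + j b ^ 2) * z b ^ 2
      ≤ ρ ^ 2 / H * (√(∑ a, j a ^ 2 * u a ^ 2) * ∑ b, z b ^ 2) := by
  have hj2 : ∀ a, j a ^ 2 ≤ ρ ^ 2 := fun a => by
    rw [← sq_abs]
    exact pow_le_pow_left₀ (abs_nonneg _) (hj a) 2
  set r := √(∑ a, j a ^ 2 * u a ^ 2) with hr
  have hr0 : 0 ≤ r := Real.sqrt_nonneg _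
  have h1 : ∀ b, |∑ a, v a * (j a * u a) * (j a ^ 2 - j b ^ 2)| ≤ ρ ^ 2 * r := by
    intro b
    refine (Finset.abs_sum_le_sum_abs _ _).trans ?_
    have k1 : ∀ a, |v a * (j a * u a) * (j a ^ 2 - j b ^ 2)| ≤ ρ ^ 2 * |v a * (j a * u a)| := by
      intro a
      rw [abs_mul, mul_comm]
      refine mul_le_mul_of_nonneg_right ?_ (abs_nonneg _)
      rw [abs_le]
      have := hj2 a
      have := hj2 b
      constructor <;> nlinarith [sq_nonneg (j a), sq_nonneg (j b)]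
    refine (Finset.sum_le_sum fun a _ => k1 a).trans ?_
    rw [← Finset.mul_sum]
    refine mul_le_mul_of_nonneg_left ?_ (sq_nonneg ρ)
    refine (sum_abs_mul_le v fun a => j a * u a).trans ?_
    have k2 : √(∑ a, v a ^ 2) ≤ 1 := by
      rw [← Real.sqrt_one]
      exact Real.sqrt_le_sqrt hv
    have k3 : √(∑ a, (j a * u a) ^ 2) = r := by
      rw [hr]
      simp only [mul_pow]
    rw [k3]
    nlinarith
  rw [Finset.mul_sum, Finset.mul_sum]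
  refine Finset.sum_le_sum fun b _ => ?_
  rw [← mul_assoc]
  refine mul_le_mul_of_nonneg_right ?_ (sq_nonneg _)
  have h0 : 0 < H + j b ^ 2 := by positivity
  have h2 := (le_abs_self _).trans (h1 b)
  rw [div_mul_eq_mul_div, div_le_div_iff₀ h0 hH0]
  have h3 : 0 ≤ ρ ^ 2 * r := by positivity
  have h4 : H * (∑ a, v a * (j a * u a) * (j a ^ 2 - j b ^ 2)) ≤ H * (ρ ^ 2 * r) :=
    mul_le_mul_of_nonneg_left h2 hH0.le
  nlinarith [sq_nonneg (j b)]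

/-- the entries of the last term -/
lemma entry_le {H ρ κ : ℝ} (hH0 : 0 < H) (h1 : 9 / 8 * ρ ^ 2 ≤ κ * H)
    (h2 : 9 / 4 * ρ ^ 2 ≤ κ * (H + ρ ^ 2)) {s t : ℝ} (hs : |s| ≤ ρ) (ht : |t| ≤ ρ) (hκ : 0 ≤ κ) :
    |(s - t) * (s + 2 * t) / (H + t ^ 2)| ≤ κ := by
  have hs2 : s ^ 2 ≤ ρ ^ 2 := by
    rw [← sq_abs]
    exact pow_le_pow_left₀ (abs_nonneg _) hs 2
  have ht2 : t ^ 2 ≤ ρ ^ 2 := by
    rw [← sq_abs]
    exact pow_le_pow_left₀ (abs_nonneg _) ht 2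
  have h0 : 0 < H + t ^ 2 := by positivity
  rw [abs_div, abs_of_pos h0, div_le_iff₀ h0, abs_le]
  constructor
  · -- `2 t² - s t - s² ≤ 9/4 t² ≤ κ (H + t²)`
    have k1 : 9 / 4 * t ^ 2 ≤ κ * (H + t ^ 2) := by
      by_cases hc : κ ≤ 9 / 4
      · nlinarith
      · push Not at hc
        nlinarith [mul_nonneg hκ hH0.le, sq_nonneg t]
    nlinarith [sq_nonneg (s + t / 2)]
  · have k1 : (s - t) * (s + 2 * t) ≤ 9 / 8 * ρ ^ 2 := by
      nlinarith [sq_nonneg (s - 4 * t)]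
    nlinarith [mul_nonneg hκ (sq_nonneg t)]

/-- the last term -/
lemma T4_le {H ρ κ : ℝ} (hH0 : 0 < H) (h1 : 9 / 8 * ρ ^ 2 ≤ κ * H)
    (h2 : 9 / 4 * ρ ^ 2 ≤ κ * (H + ρ ^ 2)) (hκ : 0 ≤ κ) (hj : ∀ a, |j a| ≤ ρ)
    (hv : ∑ a, v a ^ 2 ≤ 1) (z : ι → ℝ) :
    -(κ * (√(∑ a, j a ^ 2 * u a ^ 2) * ∑ b, z b ^ 2))
      ≤ ∑ a, ∑ b, (j a - j b) * (j a + 2 * j b) / (H + j b ^ 2)
          * (v a * z a * (j b * u b * z b)) := by
  set r := √(∑ a, j a ^ 2 * u a ^ 2) with hr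
  have hs0 : 0 ≤ ∑ b, z b ^ 2 := Finset.sum_nonneg fun a _ => sq_nonneg _
  have k0 : |∑ a, ∑ b, (j a - j b) * (j a + 2 * j b) / (H + j b ^ 2)
          * (v a * z a * (j b * u b * z b))| ≤ κ * (r * ∑ b, z b ^ 2) := by
    refine (Finset.abs_sum_le_sum_abs _ _).trans ?_
    have k1 : ∀ a, |∑ b, (j a - j b) * (j a + 2 * j b) / (H + j b ^ 2)
          * (v a * z a * (j b * u b * z b))|
        ≤ |v a * z a| * (κ * ∑ b, |j b * u b * z b|) := by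
      intro a
      refine (Finset.abs_sum_le_sum_abs _ _).trans ?_
      rw [Finset.mul_sum, Finset.mul_sum]
      refine Finset.sum_le_sum fun b _ => ?_
      rw [abs_mul, abs_mul (v a * z a)]
      have := mul_le_mul_of_nonneg_right (entry_le hH0 h1 h2 (hj a) (hj b) hκ)
        (mul_nonneg (abs_nonneg (v a * z a)) (abs_nonneg (j b * u b * z b)))
      linarith
    refine (Finset.sum_le_sum fun a _ => k1 a).trans ?_
    rw [← Finset.sum_mul]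
    have k2 : ∑ a, |v a * z a| ≤ √(∑ b, z b ^ 2) := by
      refine (sum_abs_mul_le v z).trans ?_
      have : √(∑ a, v a ^ 2) ≤ 1 := by
        rw [← Real.sqrt_one]
        exact Real.sqrt_le_sqrt hv
      nlinarith [Real.sqrt_nonneg (∑ a, z a ^ 2)]
    have k3 : ∑ b, |j b * u b * z b| ≤ r * √(∑ b, z b ^ 2) := by
      have := sum_abs_mul_le (fun b => j b * u b) z
      simp only [mul_pow] at this
      exact this
    have k4 : 0 ≤ ∑ b, |j b * u b * z b| := Finset.sum_nonneg fun b _ => abs_nonneg _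
    calc (∑ a, |v a * z a|) * (κ * ∑ b, |j b * u b * z b|)
        ≤ √(∑ b, z b ^ 2) * (κ * (r * √(∑ b, z b ^ 2))) :=
          mul_le_mul k2 (mul_le_mul_of_nonneg_left k3 hκ) (mul_nonneg hκ k4) (Real.sqrt_nonneg _)
      _ = κ * (r * (√(∑ b, z b ^ 2) * √(∑ b, z b ^ 2))) := by ring
      _ = κ * (r * ∑ b, z b ^ 2) := by rw [Real.mul_self_sqrt hs0]
  exact (abs_le.1 k0).1

/-- **the pointwise bound** -/
theorem ptw (hm : 0 < m) {ρ κ : ℝ} (hρ : 0 < ρ) (hρm : ρ ^ 2 ≤ (m + 2) / 2) (hκ : 0 ≤ κ)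
    (h1 : 9 / 8 * ρ ^ 2 ≤ κ * ((m + 2) / 2)) (h2 : 9 / 4 * ρ ^ 2 ≤ κ * ((m + 2) / 2 + ρ ^ 2))
    (hj : ∀ a, |j a| ≤ ρ) (hn : ∑ a, n a ^ 2 = 1) (hv : ∑ a, v a ^ 2 ≤ 1) :
    ∑ a, v a * G8 m j u n a
      ≤ (∑ a, j a ^ 2 * u a ^ 2 - 1) * (∑ a, v a * zz j u n a)
        + (1 / 2 + ρ ^ 2 / (m + 2) + κ) * (√(∑ a, j a ^ 2 * u a ^ 2) * ∑ b, zz j u n b ^ 2)
        + ρ * (|∑ a, ((m + 2) / 2 + j a ^ 2) * v a / ((m + 2) / 2 + ρ ^ 2) * u a|
          * ∑ b, zz j u n b ^ 2) := by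
  have hH0 : 0 < (m + 2) / 2 := by positivity
  rw [G8_split hm]
  have k1 := main_cs (j := j) (u := u) hn hv
  have k2 := T2_le (v := v) (u := u) hρ hρm hj (zz j u n)
  have k3 := corr3_le (u := u) hH0 hj hv (zz j u n)
  have k4 := T4_le (u := u) hH0 h1 h2 hκ hj hv (zz j u n)
  have e1 : ∑ a, v a * n a = ∑ a, v a * zz j u n a + ∑ a, v a * (j a * u a) := by
    rw [← Finset.sum_add_distrib]
    refine Finset.sum_congr rfl fun a _ => ?_
    unfold zz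
    ring
  have e2 : 2 * ∑ b, j b * u b * zz j u n b
      = -(∑ a, j a ^ 2 * u a ^ 2 - 1) - ∑ b, zz j u n b ^ 2 := by
    have : (1 : ℝ) = ∑ a, n a ^ 2 := hn.symm
    rw [this, Finset.mul_sum, ← Finset.sum_sub_distrib, ← Finset.sum_neg_distrib,
      ← Finset.sum_sub_distrib]
    refine Finset.sum_congr rfl fun a _ => ?_
    unfold zz
    ring
  have e3 : ρ ^ 2 / ((m + 2) / 2) = 2 * (ρ ^ 2 / (m + 2)) := by
    field_simp
  rw [e3] at k3
  rw [e1] at k1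
  set s := ∑ b, zz j u n b ^ 2
  set r := √(∑ a, j a ^ 2 * u a ^ 2)
  set q := ∑ a, j a ^ 2 * u a ^ 2 - 1
  set zv := ∑ a, v a * zz j u n a
  set yv := ∑ a, v a * (j a * u a)
  set yz := ∑ b, j b * u b * zz j u n b
  have e4 : yz = (-q - s) / 2 := by linarith
  rw [e4]
  nlinarith

section data

variable {Ω : Type*} [MeasurableSpace Ω] {μ : Measure Ω} {x N : ι → Ω → ℝ}

/-- the pointwise bound along the data, in the form of `el_core` -/
theorem hP_data (h : T0Data μ m x N) (hm : 0 < m) {ρ κ : ℝ} (hρ : 0 < ρ)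
    (hρm : ρ ^ 2 ≤ (m + 2) / 2) (hκ : 0 ≤ κ) (h1 : 9 / 8 * ρ ^ 2 ≤ κ * ((m + 2) / 2))
    (h2 : 9 / 4 * ρ ^ 2 ≤ κ * ((m + 2) / 2 + ρ ^ 2)) (hj : ∀ a, |j a| ≤ ρ) (v : ι → ℝ)
    (hv : ∑ a, v a ^ 2 = 1) : ∃ v' : ι → ℝ, ∑ a, v' a ^ 2 ≤ 1 ∧ ∀ ω,
      ∑ a, v a * G8 m j (fun b => x b ω) (fun b => N b ω) a
        ≤ qj j x ω * (∑ a, v a * zd j x N a ω)
          + (1 / 2 + ρ ^ 2 / (m + 2) + κ) * (rr j x ω * sz j x N ω)
          + ρ * (|∑ a, v' a * x a ω| * sz j x N ω) := by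
  refine ⟨fun a => ((m + 2) / 2 + j a ^ 2) * v a / ((m + 2) / 2 + ρ ^ 2),
    short_vec (by positivity) hj hv.le, fun ω => ?_⟩
  have k := ptw (u := fun b => x b ω) (n := fun b => N b ω) hm hρ hρm hκ h1 h2 hj (h.uN ω) hv.le
  have e1 : ∀ a, zz j (fun b => x b ω) (fun b => N b ω) a = zd j x N a ω := fun a => rfl
  have e2 : ∑ b, zz j (fun b => x b ω) (fun b => N b ω) b ^ 2 = sz j x N ω := by
    unfold sz
    exact Finset.sum_congr rfl fun b _ => by rw [e1, sq]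
  rw [e2] at k
  exact k

/-- **The mean normal law** with the cross term, closed in the moments and in the radius term. -/
theorem el_kb' (h : T0Data μ m x N) (hm : 3 ≤ m) (hL : LSq μ (Matrix.diagonal j) x N)
    {L ρ κ rb δ t M Q : ℝ} (hL8 : ∀ a, L ≤ L8 m j a) (hρ : 0 < ρ) (hρm : ρ ^ 2 ≤ (m + 2) / 2)
    (hκ : 0 ≤ κ) (h1 : 9 / 8 * ρ ^ 2 ≤ κ * ((m + 2) / 2))
    (h2 : 9 / 4 * ρ ^ 2 ≤ κ * ((m + 2) / 2 + ρ ^ 2)) (hj : ∀ a, |j a| ≤ ρ)
    (hδ : 0 ≤ δ) (hδ1 : δ < 1) (hf : fro (De μ x N) ≤ δ ^ 2)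
    (hQ0 : 0 ≤ Q) (hQ : 16 / 7 * ((δ ^ 2 + 2 / (m + 1) * hh μ (Matrix.diagonal j) x N)
        / (1 - δ) ^ 2) + hh μ (Matrix.diagonal j) x N ^ 2 ≤ Q ^ 2)
    {k : ℕ} (hk : 1 ≤ k) (ht : 0 < t) (hM0 : 0 ≤ M)
    (hM : ∀ v : ι → ℝ, ∑ a, v a ^ 2 = 1 → ∫ ω, (∑ a, v a * x a ω) ^ (2 * k) ∂μ ≤ M)
    (hR : ∫ ω, rr j x ω * sz j x N ω ∂μ ≤ rb * hh μ (diagonal j) x N) :
    L * √(uu μ N) ≤ Q * √(hh μ (diagonal j) x N)
      + ((1 / 2 + ρ ^ 2 / (m + 2) + κ) * rb + ρ * (t * (1 - 1 / (2 * k))))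
        * hh μ (diagonal j) x N
      + ρ * (t / (2 * k) / t ^ (2 * k) * M * (1 + ρ) ^ 2) :=
  el_kb h hm hL hL8 (by positivity) hρ.le hj hδ hδ1 hf hQ0 hQ
    (hP_data h (by linarith) hρ hρm hκ h1 h2 hj) hk ht hM0 hM hR

end data

end

end Vale.Agent.P224.R2.H590
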