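import Vale.Agent.P224.R2.H590.Ptw

/-!
The sharp pointwise bound of the integrand of the mean normal law and the hybrid bound.
-/

namespace Vale.Agent.P224.R2.H590

open MeasureTheory Matrix Finset Filter
open Vale.Agent.P224.R2.H728 Vale.Agent.P224.R2.H579

set_option linter.unusedSectionVars false

noncomputable section

variable {ι : Type*} [Fintype ι] [DecidableEq ι] {m : ℝ} {j u n v : ι → ℝ}

/-- the norm of the main vector is explicit -/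
lemma main_norm (hn : ∑ a, n a ^ 2 = 1) :
    ∑ a, (1 / 2 * ((∑ b, zz j u n b ^ 2) + 3 * (∑ a, j a ^ 2 * u a ^ 2 - 1)) * zz j u n a
        + 3 / 2 * (∑ b, zz j u n b ^ 2) * (j a * u a)) ^ 2
      = (∑ b, zz j u n b ^ 2) ^ 2 * (9 / 4 + 3 / 4 * (∑ a, j a ^ 2 * u a ^ 2 - 1)
          - (∑ b, zz j u n b ^ 2) / 2) := by
  set s := ∑ b, zz j u n b ^ 2 with hs
  set q := ∑ a, j a ^ 2 * u a ^ 2 - 1 with hq
  have e2 : 2 * ∑ b, j b * u b * zz j u n b = -q - s := by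
    rw [hs, hq]
    have : (1 : ℝ) = ∑ a, n a ^ 2 := hn.symm
    rw [this, Finset.mul_sum, ← Finset.sum_sub_distrib, ← Finset.sum_neg_distrib,
      ← Finset.sum_sub_distrib]
    refine Finset.sum_congr rfl fun a _ => ?_
    unfold zz
    ring
  clear_value s q
  have k : ∑ a, (1 / 2 * (s + 3 * q) * zz j u n a + 3 / 2 * s * (j a * u a)) ^ 2
      = 1 / 4 * (s + 3 * q) ^ 2 * (∑ a, zz j u n a ^ 2)
        + 3 / 4 * s * (s + 3 * q) * (2 * ∑ b, j b * u b * zz j u n b)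
        + 9 / 4 * s ^ 2 * ∑ a, j a ^ 2 * u a ^ 2 := by
    rw [Finset.mul_sum, Finset.mul_sum, Finset.mul_sum, Finset.mul_sum, ← Finset.sum_add_distrib,
      ← Finset.sum_add_distrib]
    exact Finset.sum_congr rfl fun a _ => by ring
  have e3 : ∑ a, j a ^ 2 * u a ^ 2 = q + 1 := by rw [hq]; ring
  rw [k, e2, e3, ← hs]
  ring

/-- **the sharp bound of the main term** -/
lemma main_sharp (hn : ∑ a, n a ^ 2 = 1) (hv : ∑ a, v a ^ 2 ≤ 1) :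
    1 / 2 * ((∑ b, zz j u n b ^ 2) * (∑ a, v a * n a))
        + 3 / 2 * ((∑ a, j a ^ 2 * u a ^ 2 - 1) * (∑ a, v a * zz j u n a))
      ≤ (3 / 2 + (∑ a, j a ^ 2 * u a ^ 2 - 1) / 4 - ∑ a, v a * (j a * u a))
        * (∑ b, zz j u n b ^ 2) := by
  have h1 := main_norm (j := j) (u := u) hn
  set s := ∑ b, zz j u n b ^ 2 with hs
  set q := ∑ a, j a ^ 2 * u a ^ 2 - 1 with hq
  have hs0 : 0 ≤ s := Finset.sum_nonneg fun a _ => sq_nonneg _
  have hq0 : -1 ≤ q := by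
    have : 0 ≤ ∑ a, j a ^ 2 * u a ^ 2 := Finset.sum_nonneg fun a _ => by positivity
    rw [hq]; linarith
  have h2 := Finset.sum_mul_sq_le_sq_mul_sq Finset.univ v fun a =>
    1 / 2 * (s + 3 * q) * zz j u n a + 3 / 2 * s * (j a * u a)
  rw [h1] at h2
  have h3 : 0 ≤ s ^ 2 * (9 / 4 + 3 / 4 * q - s / 2) := by
    rw [← h1]
    exact Finset.sum_nonneg fun a _ => sq_nonneg _
  have h4 : (∑ a, v a * (1 / 2 * (s + 3 * q) * zz j u n a + 3 / 2 * s * (j a * u a))) ^ 2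
      ≤ ((3 / 2 + q / 4) * s) ^ 2 := by
    refine h2.trans ?_
    have k1 : (∑ a, v a ^ 2) * (s ^ 2 * (9 / 4 + 3 / 4 * q - s / 2))
        ≤ s ^ 2 * (9 / 4 + 3 / 4 * q - s / 2) := by nlinarith
    refine k1.trans ?_
    rw [mul_pow, mul_comm]
    refine mul_le_mul_of_nonneg_right ?_ (sq_nonneg s)
    nlinarith [sq_nonneg q]
  have h5 := (abs_le.1 (abs_le_of_sq_le_sq h4 (mul_nonneg (by linarith) hs0))).2
  clear_value s q
  have e1 : ∑ a, v a * (1 / 2 * (s + 3 * q) * zz j u n a + 3 / 2 * s * (j a * u a))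
      = 1 / 2 * (s + 3 * q) * (∑ a, v a * zz j u n a)
        + 3 / 2 * s * ∑ a, v a * (j a * u a) := by
    rw [Finset.mul_sum, Finset.mul_sum, ← Finset.sum_add_distrib]
    exact Finset.sum_congr rfl fun a _ => by ring
  have e2 : ∑ a, v a * n a = ∑ a, v a * zz j u n a + ∑ a, v a * (j a * u a) := by
    rw [← Finset.sum_add_distrib]
    refine Finset.sum_congr rfl fun a _ => ?_
    unfold zz
    ring
  rw [e1] at h5
  rw [e2]
  nlinarith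

/-- the linear size -/
def lx (m ρ : ℝ) (j v u : ι → ℝ) : ℝ :=
  ρ * |∑ a, ((m + 2) / 2 + j a ^ 2) * v a / ((m + 2) / 2 + ρ ^ 2) * u a|

lemma lx_nonneg {ρ : ℝ} (hρ : 0 ≤ ρ) (j v u : ι → ℝ) : 0 ≤ lx m ρ j v u :=
  mul_nonneg hρ (abs_nonneg _)

/-- **the sharp pointwise bound** -/
theorem ptwA (hm : 0 < m) {ρ κ : ℝ} (hρ : 0 < ρ) (hρm : ρ ^ 2 ≤ (m + 2) / 2) (hκ : 0 ≤ κ)
    (h1 : 9 / 8 * ρ ^ 2 ≤ κ * ((m + 2) / 2)) (h2 : 9 / 4 * ρ ^ 2 ≤ κ * ((m + 2) / 2 + ρ ^ 2))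
    (hj : ∀ a, |j a| ≤ ρ) (hn : ∑ a, n a ^ 2 = 1) (hv : ∑ a, v a ^ 2 ≤ 1) :
    ∑ a, v a * G8 m j u n a
      ≤ (3 / 2 + (∑ a, j a ^ 2 * u a ^ 2 - 1) / 4 - ∑ a, v a * (j a * u a)
          + (ρ ^ 2 / (m + 2) + κ) * √(∑ a, j a ^ 2 * u a ^ 2) + lx m ρ j v u)
        * (∑ b, zz j u n b ^ 2) := by
  have hH0 : 0 < (m + 2) / 2 := by positivity
  rw [G8_split hm]
  have k1 := main_sharp (j := j) (u := u) hn hv
  have k2 := T2_le (v := v) (u := u) hρ hρm hj (zz j u n)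
  have k3 := corr3_le (u := u) hH0 hj hv (zz j u n)
  have k4 := T4_le (u := u) hH0 h1 h2 hκ hj hv (zz j u n)
  have e1 : ∑ a, v a * n a = ∑ a, v a * zz j u n a + ∑ a, v a * (j a * u a) := by
    rw [← Finset.sum_add_distrib]
    refine Finset.sum_congr rfl fun a _ => ?_
    unfold zz
    ring
  have e2 : 2 * ∑ b, j b * u b * zz j u n b
      = -(∑ a, j a ^ 2 * u a ^ 2 - 1) - ∑ b, zz j u n b ^ 2 := by
    have : (1 : ℝ) = ∑ a, n a ^ 2 := hn.symm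
    rw [this, Finset.mul_sum, ← Finset.sum_sub_distrib, ← Finset.sum_neg_distrib,
      ← Finset.sum_sub_distrib]
    refine Finset.sum_congr rfl fun a _ => ?_
    unfold zz
    ring
  have e3 : ρ ^ 2 / ((m + 2) / 2) = 2 * (ρ ^ 2 / (m + 2)) := by
    field_simp
  rw [e3] at k3
  rw [e1] at k1
  unfold lx
  set s := ∑ b, zz j u n b ^ 2
  set r := √(∑ a, j a ^ 2 * u a ^ 2)
  set q := ∑ a, j a ^ 2 * u a ^ 2 - 1
  set zv := ∑ a, v a * zz j u n a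
  set yv := ∑ a, v a * (j a * u a)
  set yz := ∑ b, j b * u b * zz j u n b
  set X := |∑ a, ((m + 2) / 2 + j a ^ 2) * v a / ((m + 2) / 2 + ρ ^ 2) * u a|
  have e4 : yz = (-q - s) / 2 := by linarith
  rw [e4]
  nlinarith

/-- the completed square: `|q| √s ≤ λ s + q²/(4λ)` -/
lemma cs_amgm {q zv s l : ℝ} (hz : zv ^ 2 ≤ s) (hl : 0 < l) : q * zv ≤ l * s + q ^ 2 / (4 * l) := by
  have h1 : 0 ≤ (2 * l * zv - q) ^ 2 / (4 * l) := by positivity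
  have h2 : (2 * l * zv - q) ^ 2 / (4 * l) = l * zv ^ 2 - q * zv + q ^ 2 / (4 * l) := by
    field_simp
    ring
  nlinarith

/-- **the hybrid bound**: where the sharp bound exceeds `K0` the cross term is completed -/
theorem ptwB (hm : 0 < m) {ρ κ K : ℝ} (hρ : 0 < ρ) (hρm : ρ ^ 2 ≤ (m + 2) / 2) (hκ : 0 ≤ κ)
    (h1 : 9 / 8 * ρ ^ 2 ≤ κ * ((m + 2) / 2)) (h2 : 9 / 4 * ρ ^ 2 ≤ κ * ((m + 2) / 2 + ρ ^ 2))
    (hj : ∀ a, |j a| ≤ ρ) (hn : ∑ a, n a ^ 2 = 1) (hv : ∑ a, v a ^ 2 ≤ 1)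
    (hK : 0 < K - (1 / 2 + ρ ^ 2 / (m + 2) + κ) * √(∑ a, j a ^ 2 * u a ^ 2) - lx m ρ j v u) :
    ∑ a, v a * G8 m j u n a
      ≤ K * (∑ b, zz j u n b ^ 2) + (∑ a, j a ^ 2 * u a ^ 2 - 1) ^ 2
        / (4 * (K - (1 / 2 + ρ ^ 2 / (m + 2) + κ) * √(∑ a, j a ^ 2 * u a ^ 2)
          - lx m ρ j v u)) := by
  have k := ptw (u := u) (n := n) hm hρ hρm hκ h1 h2 hj hn hv
  have hz : (∑ a, v a * zz j u n a) ^ 2 ≤ ∑ b, zz j u n b ^ 2 := by
    refine (Finset.sum_mul_sq_le_sq_mul_sq _ _ _).trans ?_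
    have : 0 ≤ ∑ b, zz j u n b ^ 2 := Finset.sum_nonneg fun a _ => sq_nonneg _
    nlinarith
  have k2 := cs_amgm (q := ∑ a, j a ^ 2 * u a ^ 2 - 1) hz hK
  unfold lx at *
  nlinarith

end

end Vale.Agent.P224.R2.H590
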